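import Vale.Agent.P192.R2.H360.Defs

set_option linter.all false

/-! Finite image and topological full groups, from the uniform theorem. -/

namespace Vale.Agent.P192.R2.H360

/-- statement of the uniform theorem -/
def UnifStmt : Prop := ∀ (G : Type) [Group G] [Group.IsFinitelyPresented G], IsMulTorsion G →
    ∀ (S : Set G), Subgroup.closure S = ⊤ → ∀ m : ℕ,
    ∃ N : Subgroup G, N.Normal ∧ N.FiniteIndex ∧
      ∀ (U V : Type) (T₁ : Equiv.Perm U) (T₂ : Equiv.Perm V) (ρ : G →* Equiv.Perm (U × V)),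
        (∀ s, (s ∈ S ∨ s⁻¹ ∈ S) → PType T₁ T₂ m (ρ s)) → ∀ g ∈ N, ρ g = 1

theorem PType.mono {U V : Type} {T₁ : Equiv.Perm U} {T₂ : Equiv.Perm V} {m m' : ℕ} (hm : m ≤ m')
    {h : U × V → U × V} (hp : PType T₁ T₂ m h) : PType T₁ T₂ m' h := by
  obtain ⟨a, b, f, hf, hh⟩ := hp
  refine ⟨fun u => Fin.castLE hm (a u), fun v => Fin.castLE hm (b v), fun α β =>
    if hαβ : (α : ℕ) < m ∧ (β : ℕ) < m then f ⟨α, hαβ.1⟩ ⟨β, hαβ.2⟩ else (0, 0), ?_, ?_⟩
  · intro α β
    by_cases hαβ : (α : ℕ) < m ∧ (β : ℕ) < m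
    · simp only [hαβ, and_self, dif_pos]
      obtain ⟨h1, h2⟩ := hf ⟨α, hαβ.1⟩ ⟨β, hαβ.2⟩
      have : (m : ℤ) ≤ m' := by exact_mod_cast hm
      exact ⟨h1.trans this, h2.trans this⟩
    · simp only [hαβ, dif_neg, not_false_eq_true]
      simp
  · intro u v
    rw [hh u v]
    have hc : ((Fin.castLE hm (a u) : Fin m') : ℕ) < m ∧ ((Fin.castLE hm (b v) : Fin m') : ℕ) < m :=
      ⟨(a u).2, (b v).2⟩
    simp only [hc, and_self, dif_pos]
    rfl

/-- (D1) finite image, from the uniform theorem -/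
theorem full_of (hU : UnifStmt) (G : Type) [Group G] [Group.IsFinitelyPresented G]
    (hG : IsMulTorsion G) (U V : Type) (T₁ : Equiv.Perm U) (T₂ : Equiv.Perm V)
    (ρ : G →* Equiv.Perm (U × V)) (h : ∀ g, ∃ m, PType T₁ T₂ m (ρ g)) : Finite ρ.range := by
  classical
  obtain ⟨n, φ, hφ, -⟩ := Group.IsFinitelyPresented.out (G := G)
  have hS : Subgroup.closure (Set.range fun i : Fin n => φ (FreeGroup.of i)) = ⊤ := by
    have h1 : Set.range (fun i : Fin n => φ (FreeGroup.of i)) = φ '' Set.range FreeGroup.of := by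
      rw [← Set.range_comp]; rfl
    rw [h1, ← MonoidHom.map_closure, FreeGroup.closure_range_of, ← MonoidHom.range_eq_map,
      MonoidHom.range_eq_top.2 hφ]
  choose m hm using h
  set M : ℕ := Finset.univ.sup fun i : Fin n =>
    max (m (φ (FreeGroup.of i))) (m (φ (FreeGroup.of i))⁻¹) with hM
  obtain ⟨N, hN, hNi, hNρ⟩ := hU G hG _ hS M
  have hker : N ≤ ρ.ker := by
    intro g hg
    rw [MonoidHom.mem_ker]
    refine hNρ U V T₁ T₂ ρ ?_ g hg
    intro s hs
    refine (hm s).mono ?_
    rcases hs with ⟨i, hi⟩ | ⟨i, hi⟩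
    · refine le_trans ?_ (Finset.le_sup (f := fun i : Fin n =>
        max (m (φ (FreeGroup.of i))) (m (φ (FreeGroup.of i))⁻¹)) (Finset.mem_univ i))
      have : s = φ (FreeGroup.of i) := hi.symm
      rw [this]
      exact le_max_left _ _
    · refine le_trans ?_ (Finset.le_sup (f := fun i : Fin n =>
        max (m (φ (FreeGroup.of i))) (m (φ (FreeGroup.of i))⁻¹)) (Finset.mem_univ i))
      have : s = (φ (FreeGroup.of i))⁻¹ := by
        have hi' : φ (FreeGroup.of i) = s⁻¹ := hi
        rw [hi', inv_inv]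
      rw [this]
      exact le_max_right _ _
  have hki : ρ.ker.FiniteIndex := Subgroup.finiteIndex_of_le hker
  have : Finite (G ⧸ ρ.ker) := inferInstance
  exact Finite.of_equiv _ (QuotientGroup.quotientKerEquivRange ρ).toEquiv

/-- a continuous function on a product of compact spaces with values in a discrete space depends
on finitely many colours of the two coordinates -/
theorem exists_colours {U V W : Type} [TopologicalSpace U] [TopologicalSpace V] [CompactSpace U]
    [CompactSpace V] [TopologicalSpace W] [DiscreteTopology W] (F : U × V → W)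
    (hF : Continuous F) : (Set.range fun u => fun v => F (u, v)).Finite := by
  have hloc : IsLocallyConstant fun u => fun v => F (u, v) := by
    rw [IsLocallyConstant.iff_exists_open]
    intro u₀
    have hop : IsOpen {z : U × V | F z = F (u₀, z.2)} := by
      have h2 : Continuous fun z : U × V => F (u₀, z.2) := hF.comp (by fun_prop)
      exact (isOpen_discrete {p : W × W | p.1 = p.2}).preimage (hF.prodMk h2)
    obtain ⟨A, B, hA, hB, hA1, hB1, hAB⟩ := generalized_tube_lemma (isCompact_singleton (x := u₀))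
      (isCompact_univ (X := V)) hop (by
        rintro ⟨u, v⟩ ⟨hu, -⟩
        have : u = u₀ := hu
        subst this
        rfl)
    refine ⟨A, hA, hA1 rfl, ?_⟩
    intro u hu
    funext v
    exact hAB (Set.mk_mem_prod hu (hB1 (Set.mem_univ v)))
  exact hloc.range_finite

theorem exists_colours' {U V W : Type} [TopologicalSpace U] [TopologicalSpace V] [CompactSpace U]
    [CompactSpace V] [TopologicalSpace W] [DiscreteTopology W] (F : U × V → W)
    (hF : Continuous F) : (Set.range fun v => fun u => F (u, v)).Finite :=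
  exists_colours (fun z : V × U => F (z.2, z.1)) (hF.comp (by fun_prop))

/-- continuous cocycles are given by finitely many colours -/
theorem ptype_of_cont {U V : Type} [TopologicalSpace U] [TopologicalSpace V] [CompactSpace U]
    [CompactSpace V] (T₁ : Equiv.Perm U) (T₂ : Equiv.Perm V) (h : U × V → U × V)
    (i j : U × V → ℤ) (hi : Continuous i) (hj : Continuous j)
    (hh : ∀ z, h z = ((T₁ ^ i z) z.1, (T₂ ^ j z) z.2)) : ∃ m, PType T₁ T₂ m h := by
  classical
  set F : U × V → ℤ × ℤ := fun z => (i z, j z) with hFdef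
  have hF : Continuous F := hi.prodMk hj
  have h1 := exists_colours F hF
  have h2 := exists_colours' F hF
  have hr : (Set.range F).Finite := by
    have : IsLocallyConstant F := IsLocallyConstant.iff_continuous _ |>.2 hF
    exact this.range_finite
  haveI : Finite (Set.range fun u => fun v => F (u, v)) := h1
  haveI : Finite (Set.range fun v => fun u => F (u, v)) := h2
  obtain ⟨m₁, ⟨e₁⟩⟩ := Finite.exists_equiv_fin (Set.range fun u => fun v => F (u, v))
  obtain ⟨m₂, ⟨e₂⟩⟩ := Finite.exists_equiv_fin (Set.range fun v => fun u => F (u, v))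
  obtain ⟨m₃, hm₃⟩ : ∃ m₃ : ℕ, ∀ z, |i z| ≤ m₃ ∧ |j z| ≤ m₃ := by
    refine ⟨hr.toFinset.sup fun p => max p.1.natAbs p.2.natAbs, fun z => ?_⟩
    have hz : F z ∈ hr.toFinset := by simp
    have h3 := Finset.le_sup (f := fun p : ℤ × ℤ => max p.1.natAbs p.2.natAbs) hz
    have h4 : max (i z).natAbs (j z).natAbs ≤ hr.toFinset.sup fun p => max p.1.natAbs p.2.natAbs :=
      h3
    constructor
    · rw [Int.abs_eq_natAbs]
      exact_mod_cast (le_max_left _ _).trans h4
    · rw [Int.abs_eq_natAbs]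
      exact_mod_cast (le_max_right _ _).trans h4
  set m := max m₁ (max m₂ m₃) with hm
  have hm1 : m₁ ≤ m := le_max_left _ _
  have hm2 : m₂ ≤ m := (le_max_left _ _).trans (le_max_right _ _)
  have hm3 : m₃ ≤ m := (le_max_right _ _).trans (le_max_right _ _)
  let a : U → Fin m := fun u => Fin.castLE hm1 (e₁ ⟨fun v => F (u, v), u, rfl⟩)
  let b : V → Fin m := fun v => Fin.castLE hm2 (e₂ ⟨fun u => F (u, v), v, rfl⟩)
  have ha : ∀ u u', a u = a u' → ∀ v, F (u, v) = F (u', v) := by
    intro u u' huu v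
    have h5 := Fin.castLE_injective hm1 huu
    have h6 := e₁.injective h5
    exact congrFun (congrArg Subtype.val h6) v
  have hb : ∀ v v', b v = b v' → ∀ u, F (u, v) = F (u, v') := by
    intro v v' hvv u
    have h5 := Fin.castLE_injective hm2 hvv
    have h6 := e₂.injective h5
    exact congrFun (congrArg Subtype.val h6) u
  refine ⟨m, a, b, fun α β => if hαβ : ∃ z : U × V, a z.1 = α ∧ b z.2 = β then F hαβ.choose
    else (0, 0), ?_, ?_⟩
  · intro α β
    by_cases hαβ : ∃ z : U × V, a z.1 = α ∧ b z.2 = β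
    · simp only [hαβ, dif_pos]
      obtain ⟨h5, h6⟩ := hm₃ hαβ.choose
      have h7 : (m₃ : ℤ) ≤ m := by exact_mod_cast hm3
      exact ⟨h5.trans h7, h6.trans h7⟩
    · simp only [hαβ, dif_neg, not_false_eq_true]
      simp
  · intro u v
    have hex : ∃ z : U × V, a z.1 = a u ∧ b z.2 = b v := ⟨(u, v), rfl, rfl⟩
    have h5 : F hex.choose = F (u, v) := by
      have h6 := hex.choose_spec
      have h7 : F hex.choose = F (u, hex.choose.2) := ha _ _ h6.1 _
      rw [h7]
      exact hb _ _ h6.2 u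
    have h8 : (if hαβ : ∃ z : U × V, a z.1 = a u ∧ b z.2 = b v then F hαβ.choose else (0, 0)) =
        F (u, v) := by
      rw [dif_pos hex, h5]
    rw [hh (u, v)]
    show _ = ((T₁ ^ (if hαβ : ∃ z : U × V, a z.1 = a u ∧ b z.2 = b v then F hαβ.choose
      else (0, 0)).1) u, (T₂ ^ (if hαβ : ∃ z : U × V, a z.1 = a u ∧ b z.2 = b v then F hαβ.choose
      else (0, 0)).2) v)
    rw [h8]

/-- (D2) topological full groups, from the uniform theorem -/
theorem top_full_of (hU : UnifStmt) (G : Type) [Group G] [Group.IsFinitelyPresented G]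
    (hG : IsMulTorsion G) (U V : Type) [TopologicalSpace U] [TopologicalSpace V] [CompactSpace U]
    [CompactSpace V] (T₁ : Equiv.Perm U) (T₂ : Equiv.Perm V) (ρ : G →* Equiv.Perm (U × V))
    (h : ∀ g, ∃ i j : U × V → ℤ, Continuous i ∧ Continuous j ∧
      ∀ z, ρ g z = ((T₁ ^ i z) z.1, (T₂ ^ j z) z.2)) : Finite ρ.range := by
  refine full_of hU G hG U V T₁ T₂ ρ fun g => ?_
  obtain ⟨i, j, hi, hj, hz⟩ := h g
  exact ptype_of_cont T₁ T₂ (ρ g) i j hi hj hz

end Vale.Agent.P192.R2.H360
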