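import Vale.Agent.P192.R2.H849.Per

set_option linter.all false

/-! Paths in good systems have no matched pairs. -/

namespace Vale.Agent.P192.R2.H360

section

variable {A B : Type} {M : ℕ}

theorem run_nil (δ : Fin M × Bool → A → B → ℤ × ℤ) (a : ℤ → A) (b : ℤ → B) (z : ℤ × ℤ) :
    run δ a b [] z = z := rfl

theorem run_cons (δ : Fin M × Bool → A → B → ℤ × ℤ) (a : ℤ → A) (b : ℤ → B)
    (l : Fin M × Bool) (w : List (Fin M × Bool)) (z : ℤ × ℤ) :
    run δ a b (l :: w) z = act δ a b l (run δ a b w z) := rfl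

/-- the permutation of a generator in a good system -/
def genPerm {R : Set (FreeGroup (Fin M))} {C : ℤ} {δ : Fin M × Bool → A → B → ℤ × ℤ}
    {a : ℤ → A} {b : ℤ → B} (hg : Good R C δ a b) (i : Fin M) : Equiv.Perm (ℤ × ℤ) where
  toFun := act δ a b (i, true)
  invFun := act δ a b (i, false)
  left_inv := fun z => hg.inv i false z
  right_inv := fun z => hg.inv i true z

theorem lift_mk {R : Set (FreeGroup (Fin M))} {C : ℤ} {δ : Fin M × Bool → A → B → ℤ × ℤ}
    {a : ℤ → A} {b : ℤ → B} (hg : Good R C δ a b) (w : List (Fin M × Bool)) (z : ℤ × ℤ) :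
    FreeGroup.lift (genPerm hg) (FreeGroup.mk w) z = run δ a b w z := by
  induction w generalizing z with
  | nil => simp [run_nil, FreeGroup.one_eq_mk.symm]
  | cons l w ih =>
    rw [run_cons, ← ih z]
    rw [show FreeGroup.mk (l :: w) = FreeGroup.mk [l] * FreeGroup.mk w by
      rw [FreeGroup.mul_mk]; rfl]
    rw [map_mul, Equiv.Perm.mul_apply]
    obtain ⟨i, ε⟩ := l
    cases ε
    · simp [FreeGroup.lift_mk, genPerm]
    · simp [FreeGroup.lift_mk, genPerm]

theorem lift_rel {R : Set (FreeGroup (Fin M))} {C : ℤ} {δ : Fin M × Bool → A → B → ℤ × ℤ}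
    {a : ℤ → A} {b : ℤ → B} (hg : Good R C δ a b) {g : FreeGroup (Fin M)}
    (h : g ∈ Subgroup.normalClosure R) : FreeGroup.lift (genPerm hg) g = 1 := by
  have hle : Subgroup.normalClosure R ≤ (FreeGroup.lift (genPerm hg)).ker := by
    apply Subgroup.normalClosure_le_normal
    intro w hw
    change FreeGroup.lift (genPerm hg) w = 1
    ext1 z
    have h1 := lift_mk hg w.toWord z
    rw [FreeGroup.mk_toWord] at h1
    rw [h1, hg.rel w hw z]
    rfl
  exact hle h

theorem act_add (δ : Fin M × Bool → A → B → ℤ × ℤ) (a : ℤ → A) (b : ℤ → B) (p : ℤ × ℤ)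
    (ha : ∀ t, a (t + p.1) = a t) (hb : ∀ t, b (t + p.2) = b t) (l : Fin M × Bool) (z : ℤ × ℤ) :
    act δ a b l (z + p) = act δ a b l z + p := by
  unfold act
  rw [Prod.fst_add, Prod.snd_add, ha, hb]
  abel

theorem run_add (δ : Fin M × Bool → A → B → ℤ × ℤ) (a : ℤ → A) (b : ℤ → B) (p : ℤ × ℤ)
    (ha : ∀ t, a (t + p.1) = a t) (hb : ∀ t, b (t + p.2) = b t) (w : List (Fin M × Bool))
    (z : ℤ × ℤ) : run δ a b w (z + p) = run δ a b w z + p := by
  induction w with
  | nil => rfl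
  | cons l w ih => rw [run_cons, run_cons, ih, act_add δ a b p ha hb]

/-- the word of a segment of a path -/
theorem exists_word (δ : Fin M × Bool → A → B → ℤ × ℤ) (a a' : ℤ → A) (b b' : ℤ → B)
    (x y : ℕ → ℤ) (n i : ℕ)
    (hst : ∀ k, k < n → (x (k + 1), y (k + 1)) = (x k, y k) ∨
      ∃ l, (x (k + 1), y (k + 1)) = act δ a b l (x k, y k)) (j : ℕ) (hij : i ≤ j) (hj : j ≤ n)
    (ha : ∀ k, i ≤ k → k ≤ j → a' (x k) = a (x k))
    (hb : ∀ k, i ≤ k → k ≤ j → b' (y k) = b (y k)) :
    ∃ w, run δ a' b' w (x i, y i) = (x j, y j) := by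
  induction j, hij using Nat.le_induction with
  | base => exact ⟨[], rfl⟩
  | succ j hij ih =>
    obtain ⟨w, hw⟩ := ih (by omega) (fun k h1 h2 => ha k h1 (by omega))
      (fun k h1 h2 => hb k h1 (by omega))
    rcases hst j (by omega) with h | ⟨l, h⟩
    · exact ⟨w, by rw [hw, h]⟩
    · refine ⟨l :: w, ?_⟩
      rw [run_cons, hw, h]
      unfold act
      rw [ha j hij (by omega), hb j hij (by omega)]

/-- (B3) no matched pairs -/
theorem gpath_nomat (R : Set (FreeGroup (Fin M))) (C : ℤ) (hC : 0 ≤ C) (N : ℕ)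
    (h2 : 2 ≤ N) (hN : ∀ w ∈ R, w.norm ≤ N)
    (htor : ∀ g : FreeGroup (Fin M), ∃ m : ℕ, 0 < m ∧ g ^ m ∈ Subgroup.normalClosure R)
    (a : ℤ → A) (b : ℤ → B) (x y : ℕ → ℤ) (n : ℕ) (hP : GPath R C a b x y n)
    (r : ℤ) (hr : C * N ≤ r) (i j : ℕ) (hij : i < j) (hj : j ≤ n) :
    ¬ Matched a b x y r i j := by
  rintro ⟨hne, ⟨hwx, hx⟩, ⟨hwy, hy⟩⟩
  obtain ⟨δ, hg, hst⟩ := hP
  have hr0 : 0 ≤ r := le_trans (mul_nonneg hC (by positivity)) hr
  obtain ⟨a', ha1, ha2, ha3⟩ := periodize a (x i) (x j) r hr0 hwx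
  obtain ⟨b', hb1, hb2, hb3⟩ := periodize b (y i) (y j) r hr0 hwy
  have hg' : Good R C δ a' b' := good_of_win R C N h2 hN δ a a' b b' hg r hr ha3 hb3
  obtain ⟨w, hw⟩ := exists_word δ a a' b b' x y n i hst j hij.le hj
    (fun k h1 h2 => ha2 (x k) (fun h => hx h k h1 h2))
    (fun k h1 h2 => hb2 (y k) (fun h => hy h k h1 h2))
  set z : ℤ × ℤ := (x i, y i) with hz
  set p : ℤ × ℤ := (x j - x i, y j - y i) with hp
  have hzp : run δ a' b' w z = z + p := by
    rw [hw, hz, hp]
    ext <;> simp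
  obtain ⟨m, hm, hgm⟩ := htor (FreeGroup.mk w)
  have hker := lift_rel hg' hgm
  rw [map_pow] at hker
  have hpow : ∀ k : ℕ, ((FreeGroup.lift (genPerm hg') (FreeGroup.mk w)) ^ k) z = z + k • p := by
    intro k
    induction k with
    | zero => simp
    | succ k ih =>
      rw [pow_succ', Equiv.Perm.mul_apply, ih, lift_mk]
      have hrk : ∀ k : ℕ, run δ a' b' w (z + k • p) = z + p + k • p := by
        intro k
        induction k with
        | zero => simpa using hzp
        | succ k ihk =>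
          rw [succ_nsmul, ← add_assoc, run_add δ a' b' p ha1 hb1, ihk]
          abel
      rw [hrk, succ_nsmul]
      abel
  have h0 := hpow m
  rw [hker] at h0
  have h1 : m • p = 0 := by
    have : z + 0 = z + m • p := by simpa using h0
    exact (add_left_cancel this).symm
  have hp0 : p = 0 := by
    have hmz : (m : ℤ) ≠ 0 := by exact_mod_cast hm.ne'
    have e1 : (m : ℤ) * p.1 = 0 := by
      have := congrArg Prod.fst h1
      simpa using this
    have e2 : (m : ℤ) * p.2 = 0 := by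
      have := congrArg Prod.snd h1
      simpa using this
    ext
    · exact (mul_eq_zero.mp e1).resolve_left hmz
    · exact (mul_eq_zero.mp e2).resolve_left hmz
  have e1 : x j - x i = 0 := congrArg Prod.fst hp0
  have e2 : y j - y i = 0 := congrArg Prod.snd hp0
  rcases hne with h | h
  · exact h (by omega)
  · exact h (by omega)

/-- (B3) paths in good systems form a path class -/
theorem gpath_class (R : Set (FreeGroup (Fin M))) (C : ℤ) (hC : 0 ≤ C) (N : ℕ)
    (h2 : 2 ≤ N) (hN : ∀ w ∈ R, w.norm ≤ N)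
    (htor : ∀ g : FreeGroup (Fin M), ∃ m : ℕ, 0 < m ∧ g ^ m ∈ Subgroup.normalClosure R)
    (hne : ∃ (δ : Fin M × Bool → A → B → ℤ × ℤ) (a : ℤ → A) (b : ℤ → B), Good R C δ a b) :
    PathClass A B C (C * N) (GPath R C) where
  lip := by
    rintro a b x y n ⟨δ, hg, hst⟩ k hk
    rcases hst k hk with h | ⟨l, h⟩
    · have e1 : x (k + 1) = x k := congrArg Prod.fst h
      have e2 : y (k + 1) = y k := congrArg Prod.snd h
      rw [e1, e2]
      simpa using hC
    · have e1 : x (k + 1) = x k + (δ l (a (x k)) (b (y k))).1 := congrArg Prod.fst h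
      have e2 : y (k + 1) = y k + (δ l (a (x k)) (b (y k))).2 := congrArg Prod.snd h
      rw [e1, e2]
      simpa using hg.bd l (a (x k)) (b (y k))
  sub := by
    rintro a b x y n ⟨δ, hg, hst⟩ s t hst'
    exact ⟨δ, hg, fun k hk => hst (s + k) (by omega)⟩
  nomat := by
    intro a b x y n hP r hr i j hij hj
    exact gpath_nomat R C hC N h2 hN htor a b x y n hP r hr i j hij hj
  ne := by
    intro n
    obtain ⟨δ, a, b, hg⟩ := hne
    exact ⟨a, b, fun _ => 0, fun _ => 0, δ, hg, fun k hk => Or.inl rfl⟩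

end

end Vale.Agent.P192.R2.H360
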