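import Vale.Agent.P192.R2.H360.Defs

set_option linter.all false

/-! (A1): speeds of path classes exist (Fekete). -/

namespace Vale.Agent.P192.R2.H360

open Filter Topology Set

namespace SpeedAux

variable {A B : Type} {C r0 : ℤ}
  {P : (ℤ → A) → (ℤ → B) → (ℕ → ℤ) → (ℕ → ℤ) → ℕ → Prop}

/-- value of a path -/
def val (α β : ℝ) (x y : ℕ → ℤ) (n : ℕ) : ℝ :=
  α * ((x n : ℝ) - x 0) + β * ((y n : ℝ) - y 0)

/-- the set of values of the paths of length `n` -/
def vals (P : (ℤ → A) → (ℤ → B) → (ℕ → ℤ) → (ℕ → ℤ) → ℕ → Prop) (α β : ℝ) (n : ℕ) : Set ℝ :=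
  {v | ∃ a b x y, P a b x y n ∧ v = val α β x y n}

theorem lip_abs (x : ℕ → ℤ) (C : ℤ) (n : ℕ) (h : ∀ k, k < n → |x (k + 1) - x k| ≤ C) :
    |(x n : ℝ) - x 0| ≤ |(C : ℝ)| * n := by
  induction n with
  | zero => simp
  | succ n ih =>
    have h1 := ih (fun k hk => h k (by omega))
    have h2 : |(x (n + 1) : ℝ) - x n| ≤ (C : ℝ) := by
      have := h n (by omega)
      exact_mod_cast this
    have h3 : (x (n + 1) : ℝ) - x 0 = ((x (n + 1) : ℝ) - x n) + ((x n : ℝ) - x 0) := by ring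
    calc |(x (n + 1) : ℝ) - x 0| = |((x (n + 1) : ℝ) - x n) + ((x n : ℝ) - x 0)| := by rw [h3]
      _ ≤ |(x (n + 1) : ℝ) - x n| + |(x n : ℝ) - x 0| := abs_add_le _ _
      _ ≤ |(C : ℝ)| + |(C : ℝ)| * n := by
          have := le_abs_self (C : ℝ)
          linarith
      _ = |(C : ℝ)| * ((n + 1 : ℕ) : ℝ) := by push_cast; ring

theorem val_abs (hP : PathClass A B C r0 P) (α β : ℝ) (a : ℤ → A) (b : ℤ → B) (x y : ℕ → ℤ)
    (n : ℕ) (h : P a b x y n) : |val α β x y n| ≤ (|α| + |β|) * |(C : ℝ)| * n := by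
  have h1 := lip_abs x C n (fun k hk => (hP.lip a b x y n h k hk).1)
  have h2 := lip_abs y C n (fun k hk => (hP.lip a b x y n h k hk).2)
  unfold val
  calc |α * ((x n : ℝ) - x 0) + β * ((y n : ℝ) - y 0)|
      ≤ |α * ((x n : ℝ) - x 0)| + |β * ((y n : ℝ) - y 0)| := abs_add_le _ _
    _ = |α| * |(x n : ℝ) - x 0| + |β| * |(y n : ℝ) - y 0| := by rw [abs_mul, abs_mul]
    _ ≤ |α| * (|(C : ℝ)| * n) + |β| * (|(C : ℝ)| * n) := by
        gcongr
    _ = (|α| + |β|) * |(C : ℝ)| * n := by ring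

theorem bdd (hP : PathClass A B C r0 P) (α β : ℝ) (n : ℕ) : BddAbove (vals P α β n) := by
  refine ⟨(|α| + |β|) * |(C : ℝ)| * n, ?_⟩
  rintro v ⟨a, b, x, y, h, rfl⟩
  exact (abs_le.1 (val_abs hP α β a b x y n h)).2

theorem nonempty (hP : PathClass A B C r0 P) (α β : ℝ) (n : ℕ) : (vals P α β n).Nonempty := by
  obtain ⟨a, b, x, y, h⟩ := hP.ne n
  exact ⟨_, a, b, x, y, h, rfl⟩

/-- the sup of the values -/
noncomputable def f (P : (ℤ → A) → (ℤ → B) → (ℕ → ℤ) → (ℕ → ℤ) → ℕ → Prop) (α β : ℝ)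
    (n : ℕ) : ℝ := sSup (vals P α β n)

theorem le_f (hP : PathClass A B C r0 P) (α β : ℝ) (a : ℤ → A) (b : ℤ → B) (x y : ℕ → ℤ)
    (n : ℕ) (h : P a b x y n) : val α β x y n ≤ f P α β n :=
  le_csSup (bdd hP α β n) ⟨a, b, x, y, h, rfl⟩

theorem subadd (hP : PathClass A B C r0 P) (α β : ℝ) : Subadditive (f P α β) := by
  intro m n
  refine csSup_le (nonempty hP α β (m + n)) ?_
  rintro v ⟨a, b, x, y, h, rfl⟩
  have h1 := le_f hP α β a b _ _ m (hP.sub a b x y (m + n) h 0 m (by omega))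
  have h2 := le_f hP α β a b _ _ n (hP.sub a b x y (m + n) h m n (by omega))
  unfold val at *
  simp only [Nat.zero_add, Nat.add_zero] at h1 h2
  linarith

theorem below (hP : PathClass A B C r0 P) (α β : ℝ) :
    BddBelow (range fun n : ℕ => f P α β n / n) := by
  refine ⟨-((|α| + |β|) * |(C : ℝ)|), ?_⟩
  rintro v ⟨n, rfl⟩
  have hK : 0 ≤ (|α| + |β|) * |(C : ℝ)| := by positivity
  rcases Nat.eq_zero_or_pos n with hn | hn
  · subst hn
    simp only [Nat.cast_zero, div_zero]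
    linarith
  · have hn' : (0 : ℝ) < n := by exact_mod_cast hn
    obtain ⟨a, b, x, y, h⟩ := hP.ne n
    have h1 := le_f hP α β a b x y n h
    have h2 := (abs_le.1 (val_abs hP α β a b x y n h)).1
    show -((|α| + |β|) * |(C : ℝ)|) ≤ f P α β n / n
    rw [le_div_iff₀ hn']
    linarith

end SpeedAux

open SpeedAux in
/-- (A1) speeds exist (Fekete; `Subadditive` in Mathlib) -/
theorem exists_speed {A B : Type} {C r0 : ℤ}
    {P : (ℤ → A) → (ℤ → B) → (ℕ → ℤ) → (ℕ → ℤ) → ℕ → Prop} (hP : PathClass A B C r0 P)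
    (α β : ℝ) : ∃ L, Speed P α β L := by
  have hs := subadd hP α β
  have hb := below hP α β
  refine ⟨hs.lim, ?_, ?_⟩
  · intro ε hε
    have ht := hs.tendsto_lim hb
    have he : ∀ᶠ n : ℕ in atTop, f P α β n / n < hs.lim + ε :=
      ht.eventually (gt_mem_nhds (by linarith))
    obtain ⟨n0, hn0⟩ := eventually_atTop.1 he
    refine ⟨max 1 n0, le_max_left _ _, ?_⟩
    intro n hn a b x y h
    have hn1 : 1 ≤ n := le_trans (le_max_left _ _) hn
    have hn' : (0 : ℝ) < n := by exact_mod_cast hn1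
    have h1 := hn0 n (le_trans (le_max_right _ _) hn)
    rw [div_lt_iff₀ hn'] at h1
    have h2 := le_f hP α β a b x y n h
    unfold val at h2
    linarith
  · intro n
    rcases Nat.eq_zero_or_pos n with hn | hn
    · subst hn
      obtain ⟨a, b, x, y, h⟩ := hP.ne 0
      refine ⟨a, b, x, y, h, ?_⟩
      simp
    · have hn' : (0 : ℝ) < n := by exact_mod_cast hn
      have h1 := hs.lim_le_div hb (n := n) (by omega)
      rw [le_div_iff₀ hn'] at h1
      obtain ⟨v, ⟨a, b, x, y, h, rfl⟩, hv⟩ :=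
        exists_lt_of_lt_csSup (nonempty hP α β n)
          (show f P α β n - 1 < sSup (vals P α β n) by unfold f; linarith)
      refine ⟨a, b, x, y, h, ?_⟩
      unfold val at hv
      linarith

end Vale.Agent.P192.R2.H360
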