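import Vale.Agent.P192.R2.H360.Cut

set_option linter.all false

/-! Step 2 of the path lemma: positive speeds in both coordinates give a matched pair. -/

namespace Vale.Agent.P192.R2.H360

namespace StepTwo

lemma c_nonneg {A B : Type} {C r0 : ℤ}
    {P : (ℤ → A) → (ℤ → B) → (ℕ → ℤ) → (ℕ → ℤ) → ℕ → Prop} (hP : PathClass A B C r0 P) :
    0 ≤ C := by
  obtain ⟨a, b, x, y, h⟩ := hP.ne 1
  exact le_trans (abs_nonneg _) (hP.lip a b x y 1 h 0 (by norm_num)).1

lemma lip_of {A B : Type} {C r0 : ℤ}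
    {P : (ℤ → A) → (ℤ → B) → (ℕ → ℤ) → (ℕ → ℤ) → ℕ → Prop} (hP : PathClass A B C r0 P)
    {a : ℤ → A} {b : ℤ → B} {x y : ℕ → ℤ} {n : ℕ} (h : P a b x y n) (s t : ℕ) (hst : s + t ≤ n) :
    |x (s + t) - x s| ≤ C * t ∧ |y (s + t) - y s| ≤ C * t := by
  induction t with
  | zero => simp
  | succ t ih =>
    obtain ⟨h1, h2⟩ := ih (by omega)
    obtain ⟨h3, h4⟩ := hP.lip a b x y n h (s + t) (by omega)
    have e1 : (C * ((t + 1 : ℕ) : ℤ)) = C * t + C := by push_cast; ring
    rw [e1]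
    constructor
    · have : x (s + (t + 1)) - x s = (x (s + t + 1) - x (s + t)) + (x (s + t) - x s) := by
        rw [← add_assoc]; ring
      rw [this]
      exact (abs_add_le _ _).trans (by linarith)
    · have : y (s + (t + 1)) - y s = (y (s + t + 1) - y (s + t)) + (y (s + t) - y s) := by
        rw [← add_assoc]; ring
      rw [this]
      exact (abs_add_le _ _).trans (by linarith)

/-- the window as a function on a finite type -/
def wfun {A : Type} (R : ℕ) (a : ℤ → A) (x : ℤ) : Fin (2 * R + 1) → A :=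
  fun t => a (x + (t : ℕ) - R)

lemma win_of_wfun {A : Type} {R : ℕ} {a : ℤ → A} {x x' : ℤ} (h : wfun R a x = wfun R a x') :
    win (R : ℤ) a x a x' := by
  intro t ht
  obtain ⟨h1, h2⟩ := abs_le.1 ht
  have h3 : (t + R).toNat < 2 * R + 1 := by omega
  have h4 := congrFun h ⟨(t + R).toNat, h3⟩
  unfold wfun at h4
  dsimp only at h4
  have h5 : (((t + R).toNat : ℕ) : ℤ) = t + R := Int.toNat_of_nonneg (by omega)
  rw [h5] at h4
  have e1 : x + (t + R) - R = x + t := by ring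
  have e2 : x' + (t + R) - R = x' + t := by ring
  rwa [e1, e2] at h4

/-- pigeonhole on windows -/
lemma exists_win {A B : Type} [Finite A] [Finite B] (R : ℕ) :
    ∃ W : ℕ, ∀ (a : ℤ → A) (b : ℤ → B) (p q : ℕ → ℤ) (G : Finset ℕ), W < G.card →
      ∃ i ∈ G, ∃ j ∈ G, i < j ∧ win (R : ℤ) a (p i) a (p j) ∧ win (R : ℤ) b (q i) b (q j) := by
  classical
  have hA := Fintype.ofFinite A
  have hB := Fintype.ofFinite B
  refine ⟨Fintype.card ((Fin (2 * R + 1) → A) × (Fin (2 * R + 1) → B)), ?_⟩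
  intro a b p q G hG
  obtain ⟨i, hi, j, hj, hij, h⟩ := Finset.exists_ne_map_eq_of_card_lt_of_maps_to
    (s := G) (t := (Finset.univ : Finset ((Fin (2 * R + 1) → A) × (Fin (2 * R + 1) → B))))
    (f := fun i => (wfun R a (p i), wfun R b (q i))) (by rw [Finset.card_univ]; exact hG)
    (fun i _ => Finset.mem_univ _)
  obtain ⟨h1, h2⟩ := Prod.ext_iff.1 h
  dsimp only at h1 h2
  rcases lt_or_gt_of_ne hij with h3 | h3
  · exact ⟨i, hi, j, hj, h3, win_of_wfun h1, win_of_wfun h2⟩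
  · exact ⟨j, hj, i, hi, h3, win_of_wfun h1.symm, win_of_wfun h2.symm⟩

/-- one coordinate of the matched pair from cuts at the ends of the blocks -/
lemma cmatch_of_cuts {A : Type} {a : ℤ → A} {x : ℕ → ℤ} {r : ℤ} {n M i j : ℕ} (hn : 0 < n)
    (hij : i < j) (hjM : j ≤ M) (hw : win r a (x (n * i)) a (x (n * j)))
    (hlip : ∀ s t : ℕ, t ≤ n → s + t ≤ n * M → |x (s + t) - x s| ≤ r)
    (hi : ∀ k, i < k → k ≤ M → x (n * i) < x (n * k))
    (hj : ∀ k, k < j → x (n * k) < x (n * j)) : cmatch a x r (n * i) (n * j) := by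
  refine ⟨hw, fun _ k hk1 hk2 => ?_⟩
  have hlt : x (n * i) < x (n * j) := hj i hij
  rw [min_eq_left hlt.le, max_eq_right hlt.le]
  set m := k / n with hm
  have hk : n * m + k % n = k := Nat.div_add_mod k n
  have hmod : k % n < n := Nat.mod_lt _ hn
  have hkM : k ≤ n * M := hk2.trans (Nat.mul_le_mul_left n hjM)
  have him : i ≤ m := by
    rw [hm, Nat.le_div_iff_mul_le hn, mul_comm]
    exact hk1
  have hmj : m ≤ j := by
    have : n * m ≤ n * j := by omega
    exact Nat.le_of_mul_le_mul_left this hn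
  have h1 := hlip (n * m) (k % n) hmod.le (by omega)
  rw [hk] at h1
  obtain ⟨h2, h3⟩ := abs_le.1 h1
  have h4 : x (n * i) ≤ x (n * m) := by
    rcases eq_or_lt_of_le him with h | h
    · rw [h]
    · exact (hi m h (hmj.trans hjM)).le
  have h5 : x (n * m) ≤ x (n * j) := by
    rcases eq_or_lt_of_le hmj with h | h
    · rw [h]
    · exact (hj m h).le
  constructor <;> linarith

end StepTwo

open StepTwo

/-- (A3) step 2 -/
theorem step_two {A B : Type} [Finite A] [Finite B] {C r0 : ℤ}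
    {P : (ℤ → A) → (ℤ → B) → (ℕ → ℤ) → (ℕ → ℤ) → ℕ → Prop} (hP : PathClass A B C r0 P)
    (v c τ L : ℝ) (hv : 0 < v) (h1 : Speed P 1 0 v) (hc : 0 < c) (hτ : 0 < τ)
    (hτC : τ * C ≤ v / 2) (hL : Speed P 1 τ L) (hvL : v + τ * c ≤ L) : False := by
  classical
  have hC := c_nonneg hP
  have hτc : 0 < τ * c := mul_pos hτ hc
  -- the constants
  set K : ℝ := 2 / v + 1 / (τ * c) with hK
  have hK0 : 0 < K := by positivity
  set ε : ℝ := 1 / (8 * K) with hε
  have hε0 : 0 < ε := by positivity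
  have hKε : 2 * K * ε = 1 / 4 := by rw [hε]; field_simp; norm_num
  obtain ⟨n1, hn1, hx1⟩ := h1.1 ε hε0
  obtain ⟨n2, hn2, hx2⟩ := hL.1 ε hε0
  set n := max n1 n2 with hn
  have hnpos : 0 < n := lt_of_lt_of_le hn1 (le_max_left _ _)
  have hnr : (1 : ℝ) ≤ n := by exact_mod_cast hnpos
  have hnr0 : (0 : ℝ) < n := by linarith
  set r : ℕ := (C * n + |r0|).toNat with hr
  have hrr : (r : ℤ) = C * n + |r0| :=
    Int.toNat_of_nonneg (add_nonneg (mul_nonneg hC (Int.natCast_nonneg _)) (abs_nonneg _))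
  obtain ⟨W, hW⟩ := exists_win (A := A) (B := B) r
  obtain ⟨M, hM⟩ := exists_nat_ge (2 * (W : ℝ) + 4 * K)
  obtain ⟨a, b, x, y, hp, hdisp⟩ := hL.2 (n * M)
  -- the sums at the ends of the blocks
  set X : ℕ → ℝ := fun i => (x (n * i) : ℝ) with hX
  set Y : ℕ → ℝ := fun i => τ * (y (n * i) : ℝ) with hY
  set e : ℕ → ℝ := fun i => (L + ε) * n - ((X (i + 1) + Y (i + 1)) - (X i + Y i)) with he
  have hle : ∀ i, i < M → n * i + n ≤ n * M := by
    intro i hi
    have : n * (i + 1) ≤ n * M := Nat.mul_le_mul_left n hi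
    rw [mul_add, mul_one] at this
    exact this
  have hblk : ∀ i, i < M → P a b (fun k => x (n * i + k)) (fun k => y (n * i + k)) n :=
    fun i hi => hP.sub a b x y (n * M) hp (n * i) n (hle i hi)
  have hbx : ∀ i, i < M → X (i + 1) - X i ≤ (v + ε) * n := by
    intro i hi
    have h := hx1 n (le_max_left _ _) a b _ _ (hblk i hi)
    rw [add_zero, one_mul, zero_mul, add_zero] at h
    have e1 : n * (i + 1) = n * i + n := by ring
    rw [hX]
    dsimp only
    rw [e1]
    exact h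
  have he0 : ∀ i, i < M → 0 ≤ e i := by
    intro i hi
    have h := hx2 n (le_max_right _ _) a b _ _ (hblk i hi)
    rw [add_zero, one_mul] at h
    have e1 : n * (i + 1) = n * i + n := by ring
    rw [he, hX, hY]
    dsimp only
    rw [e1]
    linarith
  have hYle : ∀ i, i < M → Y (i + 1) - Y i ≤ v / 2 * n := by
    intro i hi
    have h := (lip_of hP hp (n * i) n (hle i hi)).2
    have h2 : ((y (n * i + n) : ℝ) - y (n * i)) ≤ C * n := by
      have := (abs_le.1 h).2
      exact_mod_cast this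
    have e1 : n * (i + 1) = n * i + n := by ring
    rw [hY]
    dsimp only
    rw [e1, ← mul_sub]
    calc τ * ((y (n * i + n) : ℝ) - y (n * i)) ≤ τ * (C * n) :=
          mul_le_mul_of_nonneg_left h2 hτ.le
      _ = τ * C * n := by ring
      _ ≤ v / 2 * n := mul_le_mul_of_nonneg_right hτC hnr0.le
  have hdX : ∀ i, i < M → v / 2 * n - e i ≤ X (i + 1) - X i := by
    intro i hi
    have h := hYle i hi
    have h2 : v * n ≤ L * n := mul_le_mul_of_nonneg_right (by linarith) hnr0.le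
    have h3 : 0 ≤ ε * n := by positivity
    rw [he]
    dsimp only
    linarith
  have hdY : ∀ i, i < M → τ * c * n - e i ≤ Y (i + 1) - Y i := by
    intro i hi
    have h := hbx i hi
    have h2 : (v + τ * c) * n ≤ L * n := mul_le_mul_of_nonneg_right hvL hnr0.le
    rw [he]
    dsimp only
    linarith
  have hsum : ∑ i ∈ Finset.range M, e i ≤ ε * n * M + 1 := by
    have e1 : ∑ i ∈ Finset.range M, e i = M * ((L + ε) * n) -
        ((X M + Y M) - (X 0 + Y 0)) := by
      rw [he]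
      rw [Finset.sum_sub_distrib, Finset.sum_const, Finset.card_range, nsmul_eq_mul,
        Finset.sum_range_sub (fun i => X i + Y i)]
    rw [e1]
    rw [one_mul] at hdisp
    push_cast at hdisp
    rw [hX, hY]
    dsimp only
    rw [mul_zero]
    linarith
  -- the failures
  have hDx : 0 ≤ v / 2 * n := by positivity
  have hDy : 0 ≤ τ * c * n := by positivity
  obtain ⟨B1, hB1, hc1⟩ : ∃ B : Finset ℕ, (∀ i, i ∈ B ↔ i ∈ Finset.range (M + 1) ∧
      ∃ j, j < i ∧ X i ≤ X j) ∧ v / 2 * n * (B.card : ℝ) ≤ ∑ i ∈ Finset.range M, e i :=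
    by
      refine ⟨_, fun i => ?_, cut_left M X e _ hDx he0 hdX⟩
      rw [Finset.mem_filter]
  obtain ⟨B2, hB2, hc2⟩ : ∃ B : Finset ℕ, (∀ i, i ∈ B ↔ i ∈ Finset.range (M + 1) ∧
      ∃ j, i < j ∧ j ≤ M ∧ X j ≤ X i) ∧ v / 2 * n * (B.card : ℝ) ≤ ∑ i ∈ Finset.range M, e i :=
    by
      refine ⟨_, fun i => ?_, cut_right M X e _ hDx he0 hdX⟩
      rw [Finset.mem_filter]
  obtain ⟨B3, hB3, hc3⟩ : ∃ B : Finset ℕ, (∀ i, i ∈ B ↔ i ∈ Finset.range (M + 1) ∧
      ∃ j, j < i ∧ Y i ≤ Y j) ∧ τ * c * n * (B.card : ℝ) ≤ ∑ i ∈ Finset.range M, e i :=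
    by
      refine ⟨_, fun i => ?_, cut_left M Y e _ hDy he0 hdY⟩
      rw [Finset.mem_filter]
  obtain ⟨B4, hB4, hc4⟩ : ∃ B : Finset ℕ, (∀ i, i ∈ B ↔ i ∈ Finset.range (M + 1) ∧
      ∃ j, i < j ∧ j ≤ M ∧ Y j ≤ Y i) ∧ τ * c * n * (B.card : ℝ) ≤ ∑ i ∈ Finset.range M, e i :=
    by
      refine ⟨_, fun i => ?_, cut_right M Y e _ hDy he0 hdY⟩
      rw [Finset.mem_filter]
  set Qs : ℝ := ∑ i ∈ Finset.range M, e i with hQ
  have hb1 : (B1.card : ℝ) ≤ (2 / v) * (Qs / n) := by
    rw [← mul_div_assoc, le_div_iff₀ hnr0]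
    have : (B1.card : ℝ) * n = 2 / v * (v / 2 * n * B1.card) := by field_simp
    rw [this]
    exact mul_le_mul_of_nonneg_left hc1 (by positivity)
  have hb2 : (B2.card : ℝ) ≤ (2 / v) * (Qs / n) := by
    rw [← mul_div_assoc, le_div_iff₀ hnr0]
    have : (B2.card : ℝ) * n = 2 / v * (v / 2 * n * B2.card) := by field_simp
    rw [this]
    exact mul_le_mul_of_nonneg_left hc2 (by positivity)
  have hb3 : (B3.card : ℝ) ≤ (1 / (τ * c)) * (Qs / n) := by
    rw [← mul_div_assoc, le_div_iff₀ hnr0]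
    have : (B3.card : ℝ) * n = 1 / (τ * c) * (τ * c * n * B3.card) := by field_simp
    rw [this]
    exact mul_le_mul_of_nonneg_left hc3 (by positivity)
  have hb4 : (B4.card : ℝ) ≤ (1 / (τ * c)) * (Qs / n) := by
    rw [← mul_div_assoc, le_div_iff₀ hnr0]
    have : (B4.card : ℝ) * n = 1 / (τ * c) * (τ * c * n * B4.card) := by field_simp
    rw [this]
    exact mul_le_mul_of_nonneg_left hc4 (by positivity)
  have hQn : Qs / n ≤ ε * M + 1 := by
    rw [div_le_iff₀ hnr0]
    refine hsum.trans ?_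
    have : (ε * M + 1) * n = ε * n * M + n := by ring
    rw [this]
    linarith
  have hbad : (B1.card : ℝ) + B2.card + B3.card + B4.card ≤ M / 4 + 2 * K := by
    have e1 : (B1.card : ℝ) + B2.card + B3.card + B4.card ≤ 2 * K * (Qs / n) := by
      rw [hK]
      linarith
    refine e1.trans ((mul_le_mul_of_nonneg_left hQn (by positivity)).trans (le_of_eq ?_))
    have : 2 * K * (ε * M + 1) = (2 * K * ε) * M + 2 * K := by ring
    rw [this, hKε]
    ring
  -- the good indices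
  set G : Finset ℕ := Finset.range (M + 1) \ (B1 ∪ B2 ∪ B3 ∪ B4) with hG
  have hGc : (W : ℝ) < G.card := by
    have h3 : (M + 1 : ℝ) ≤ G.card + (B1.card + B2.card + B3.card + B4.card) := by
      have e1 : (Finset.range (M + 1)).card ≤ G.card + (B1 ∪ B2 ∪ B3 ∪ B4).card := by
        have := Finset.card_le_card_sdiff_add_card (s := Finset.range (M + 1))
          (t := B1 ∪ B2 ∪ B3 ∪ B4)
        exact this
      have e2 : (B1 ∪ B2 ∪ B3 ∪ B4).card ≤ B1.card + B2.card + B3.card + B4.card :=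
        (Finset.card_union_le _ _).trans (Nat.add_le_add_right
          ((Finset.card_union_le _ _).trans (Nat.add_le_add_right
            (Finset.card_union_le _ _) _)) _)
      rw [Finset.card_range] at e1
      have e3 : M + 1 ≤ G.card + (B1.card + B2.card + B3.card + B4.card) :=
        e1.trans (Nat.add_le_add_left e2 _)
      exact_mod_cast e3
    have h4 : (0 : ℝ) ≤ W := Nat.cast_nonneg _
    linarith
  obtain ⟨i, hi, j, hj, hij, hwa, hwb⟩ := hW a b (fun i => x (n * i)) (fun i => y (n * i)) G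
    (by exact_mod_cast hGc)
  rw [hG, Finset.mem_sdiff, Finset.mem_union, Finset.mem_union, Finset.mem_union] at hi hj
  push Not at hi hj
  obtain ⟨hiM, ⟨⟨hi1, hi2⟩, hi3⟩, hi4⟩ := hi
  obtain ⟨hjM, ⟨⟨hj1, hj2⟩, hj3⟩, hj4⟩ := hj
  rw [hB2] at hi2
  rw [hB4] at hi4
  rw [hB1] at hj1
  rw [hB3] at hj3
  push Not at hi2 hi4 hj1 hj3
  have hjM' : j ≤ M := by
    have := Finset.mem_range.1 hjM
    omega
  have hxi : ∀ k, i < k → k ≤ M → x (n * i) < x (n * k) := by
    intro k h2 h3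
    have h4 : X i < X k := hi2 hiM k h2 h3
    have h5 : (x (n * i) : ℝ) < x (n * k) := h4
    exact_mod_cast h5
  have hyi : ∀ k, i < k → k ≤ M → y (n * i) < y (n * k) := by
    intro k h2 h3
    have h4 : Y i < Y k := hi4 hiM k h2 h3
    have h5 : τ * (y (n * i) : ℝ) < τ * y (n * k) := h4
    have h6 := lt_of_mul_lt_mul_left h5 hτ.le
    exact_mod_cast h6
  have hxj : ∀ k, k < j → x (n * k) < x (n * j) := by
    intro k h2
    have h4 : X k < X j := hj1 hjM k h2
    have h5 : (x (n * k) : ℝ) < x (n * j) := h4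
    exact_mod_cast h5
  have hyj : ∀ k, k < j → y (n * k) < y (n * j) := by
    intro k h2
    have h4 : Y k < Y j := hj3 hjM k h2
    have h5 : τ * (y (n * k) : ℝ) < τ * y (n * j) := h4
    have h6 := lt_of_mul_lt_mul_left h5 hτ.le
    exact_mod_cast h6
  have hlip : ∀ s t : ℕ, t ≤ n → s + t ≤ n * M → |x (s + t) - x s| ≤ (r : ℤ) ∧
      |y (s + t) - y s| ≤ (r : ℤ) := by
    intro s t ht hst
    obtain ⟨h2, h3⟩ := lip_of hP hp s t hst
    have h4 : C * t ≤ (r : ℤ) := by
      rw [hrr]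
      have h5 : C * t ≤ C * n := mul_le_mul_of_nonneg_left (by exact_mod_cast ht) hC
      have h6 := abs_nonneg r0
      linarith
    exact ⟨h2.trans h4, h3.trans h4⟩
  refine hP.nomat a b x y (n * M) hp r ?_ (n * i) (n * j)
    (Nat.mul_lt_mul_of_pos_left hij hnpos) (Nat.mul_le_mul_left n hjM') ?_
  · rw [hrr]
    have h5 := le_abs_self r0
    have h6 : 0 ≤ C * (n : ℤ) := mul_nonneg hC (Int.natCast_nonneg _)
    linarith
  · refine ⟨Or.inl (hxj i hij).ne, ?_, ?_⟩
    · exact cmatch_of_cuts hnpos hij hjM' hwa (fun s t h2 h3 => (hlip s t h2 h3).1) hxi hxj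
    · exact cmatch_of_cuts hnpos hij hjM' hwb (fun s t h2 h3 => (hlip s t h2 h3).2) hyi hyj

end Vale.Agent.P192.R2.H360
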