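import Vale.Agent.P192.R2.H360.Defs

set_option linter.all false

/-! (A4): displacement of a path without matched pairs is sublinear, from (A1), (A2), (A3). -/

namespace Vale.Agent.P192.R2.H360

/-- exchange of the two coordinates -/
def swapP {A B : Type} (P : (ℤ → A) → (ℤ → B) → (ℕ → ℤ) → (ℕ → ℤ) → ℕ → Prop) :
    (ℤ → B) → (ℤ → A) → (ℕ → ℤ) → (ℕ → ℤ) → ℕ → Prop :=
  fun b a y x n => P a b x y n

/-- reflection of the first coordinate -/
def reflP {A B : Type} (P : (ℤ → A) → (ℤ → B) → (ℕ → ℤ) → (ℕ → ℤ) → ℕ → Prop) :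
    (ℤ → A) → (ℤ → B) → (ℕ → ℤ) → (ℕ → ℤ) → ℕ → Prop :=
  fun a b x y n => P (fun t => a (-t)) b (fun k => -x k) y n

theorem Matched.swap {A B : Type} {a : ℤ → A} {b : ℤ → B} {x y : ℕ → ℤ} {r : ℤ} {i j : ℕ}
    (h : Matched a b x y r i j) : Matched b a y x r i j :=
  ⟨h.1.symm, h.2.2, h.2.1⟩

theorem cmatch.refl' {A : Type} {a : ℤ → A} {x : ℕ → ℤ} {r : ℤ} {i j : ℕ}
    (h : cmatch a x r i j) : cmatch (fun t => a (-t)) (fun k => -x k) r i j := by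
  refine ⟨fun t ht => ?_, fun hne k hik hkj => ?_⟩
  · have := h.1 (-t) (by rwa [abs_neg])
    show a (-(-x i + t)) = a (-(-x j + t))
    have e1 : -(-x i + t) = x i + -t := by ring
    have e2 : -(-x j + t) = x j + -t := by ring
    rw [e1, e2, this]
  · have hne' : x i ≠ x j := fun e => hne (by show -x i = -x j; rw [e])
    have := h.2 hne' k hik hkj
    show min (-x i) (-x j) - r ≤ -x k ∧ -x k ≤ max (-x i) (-x j) + r
    rw [min_neg_neg, max_neg_neg]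
    constructor <;> linarith [this.1, this.2]

theorem Matched.refl' {A B : Type} {a : ℤ → A} {b : ℤ → B} {x y : ℕ → ℤ} {r : ℤ} {i j : ℕ}
    (h : Matched a b x y r i j) :
    Matched (fun t => a (-t)) b (fun k => -x k) y r i j := by
  refine ⟨?_, h.2.1.refl', h.2.2⟩
  rcases h.1 with h1 | h1
  · exact Or.inl fun e => h1 (by simpa using e)
  · exact Or.inr h1

theorem PathClass.swap {A B : Type} {C r0 : ℤ}
    {P : (ℤ → A) → (ℤ → B) → (ℕ → ℤ) → (ℕ → ℤ) → ℕ → Prop} (hP : PathClass A B C r0 P) :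
    PathClass B A C r0 (swapP P) where
  lip := fun b a y x n h k hk => ⟨(hP.lip a b x y n h k hk).2, (hP.lip a b x y n h k hk).1⟩
  sub := fun b a y x n h s t hst => hP.sub a b x y n h s t hst
  nomat := fun b a y x n h r hr i j hij hj hm => hP.nomat a b x y n h r hr i j hij hj hm.swap
  ne := fun n => by
    obtain ⟨a, b, x, y, h⟩ := hP.ne n
    exact ⟨b, a, y, x, h⟩

theorem PathClass.refl' {A B : Type} {C r0 : ℤ}
    {P : (ℤ → A) → (ℤ → B) → (ℕ → ℤ) → (ℕ → ℤ) → ℕ → Prop} (hP : PathClass A B C r0 P) :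
    PathClass A B C r0 (reflP P) where
  lip := fun a b x y n h k hk => by
    have := hP.lip _ _ _ _ n h k hk
    refine ⟨?_, this.2⟩
    have h1 := this.1
    have e : -x (k + 1) - -x k = -(x (k + 1) - x k) := by ring
    rwa [e, abs_neg] at h1
  sub := fun a b x y n h s t hst => hP.sub _ _ _ _ n h s t hst
  nomat := fun a b x y n h r hr i j hij hj hm =>
    hP.nomat _ _ _ _ n h r hr i j hij hj hm.refl'
  ne := fun n => by
    obtain ⟨a, b, x, y, h⟩ := hP.ne n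
    refine ⟨fun t => a (-t), b, fun k => -x k, y, ?_⟩
    show P (fun t => a (- -t)) b (fun k => - -x k) y n
    simpa using h

theorem Speed.swap {A B : Type} {P : (ℤ → A) → (ℤ → B) → (ℕ → ℤ) → (ℕ → ℤ) → ℕ → Prop}
    {α β L : ℝ} (h : Speed P α β L) : Speed (swapP P) β α L := by
  refine ⟨fun ε hε => ?_, fun n => ?_⟩
  · obtain ⟨n0, h0, H⟩ := h.1 ε hε
    refine ⟨n0, h0, fun n hn b a y x hp => ?_⟩
    have := H n hn a b x y hp
    linarith
  · obtain ⟨a, b, x, y, hp, H⟩ := h.2 n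
    exact ⟨b, a, y, x, hp, by linarith⟩

theorem Speed.refl' {A B : Type} {P : (ℤ → A) → (ℤ → B) → (ℕ → ℤ) → (ℕ → ℤ) → ℕ → Prop}
    {α β L : ℝ} (h : Speed P α β L) : Speed (reflP P) (-α) β L := by
  refine ⟨fun ε hε => ?_, fun n => ?_⟩
  · obtain ⟨n0, h0, H⟩ := h.1 ε hε
    refine ⟨n0, h0, fun n hn a b x y hp => ?_⟩
    have := H n hn _ _ _ _ hp
    push_cast at this
    linarith
  · obtain ⟨a, b, x, y, hp, H⟩ := h.2 n
    refine ⟨fun t => a (-t), b, fun k => -x k, y, ?_, ?_⟩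
    · show P (fun t => a (- -t)) b (fun k => - -x k) y n
      simpa using hp
    · push_cast
      linarith

/-- (A1) as a hypothesis -/
def HA1 : Prop := ∀ (A B : Type) (C r0 : ℤ)
  (P : (ℤ → A) → (ℤ → B) → (ℕ → ℤ) → (ℕ → ℤ) → ℕ → Prop), PathClass A B C r0 P →
  ∀ α β : ℝ, ∃ L, Speed P α β L

/-- (A2) as a hypothesis -/
def HA2 : Prop := ∀ (A B : Type) [Finite A] [Finite B] (C r0 : ℤ)
  (P : (ℤ → A) → (ℤ → B) → (ℕ → ℤ) → (ℕ → ℤ) → ℕ → Prop), PathClass A B C r0 P →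
  ∀ v : ℝ, 0 < v → Speed P 1 0 v →
    ∃ c : ℝ, 0 < c ∧ ∀ τ : ℝ, 0 < τ → ∀ Lp Lm : ℝ, Speed P 1 τ Lp → Speed P 1 (-τ) Lm →
      v + τ * c ≤ max Lp Lm

/-- (A3) as a hypothesis -/
def HA3 : Prop := ∀ (A B : Type) [Finite A] [Finite B] (C r0 : ℤ)
  (P : (ℤ → A) → (ℤ → B) → (ℕ → ℤ) → (ℕ → ℤ) → ℕ → Prop), PathClass A B C r0 P →
  ∀ v c τ L : ℝ, 0 < v → Speed P 1 0 v → 0 < c → 0 < τ → τ * C ≤ v / 2 → Speed P 1 τ L →
    v + τ * c ≤ L → False

/-- the speed in the first coordinate is not positive -/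
theorem speed_nonpos (h1 : HA1) (h2 : HA2) (h3 : HA3) {A B : Type} [Finite A] [Finite B]
    {C r0 : ℤ} {P : (ℤ → A) → (ℤ → B) → (ℕ → ℤ) → (ℕ → ℤ) → ℕ → Prop}
    (hP : PathClass A B C r0 P) (v : ℝ) (hv : Speed P 1 0 v) : v ≤ 0 := by
  by_contra hcon
  have hv0 : 0 < v := not_le.1 hcon
  obtain ⟨c, hc, H⟩ := h2 A B C r0 P hP v hv0 hv
  have hD : (0 : ℝ) < 2 * (|(C : ℝ)| + 1) := by positivity
  set τ : ℝ := v / (2 * (|(C : ℝ)| + 1)) with hτd
  have hτ : 0 < τ := div_pos hv0 hD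
  have hτC : τ * C ≤ v / 2 := by
    have h1 : τ * C ≤ τ * (|(C : ℝ)| + 1) :=
      mul_le_mul_of_nonneg_left (by linarith [le_abs_self (C : ℝ)]) hτ.le
    have h2 : τ * (|(C : ℝ)| + 1) = v / 2 := by
      rw [hτd]; field_simp
    linarith
  obtain ⟨Lp, hLp⟩ := h1 A B C r0 P hP 1 τ
  obtain ⟨Lm, hLm⟩ := h1 A B C r0 P hP 1 (-τ)
  have hmax := H τ hτ Lp Lm hLp hLm
  rcases le_max_iff.1 hmax with hle | hle
  · exact h3 A B C r0 P hP v c τ Lp hv0 hv hc hτ hτC hLp hle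
  · have hP' := hP.swap.refl'.swap
    have hv' : Speed (swapP (reflP (swapP P))) 1 0 v := by
      have := hv.swap.refl'.swap
      rwa [neg_zero] at this
    have hL' : Speed (swapP (reflP (swapP P))) 1 τ Lm := by
      have := hLm.swap.refl'.swap
      rwa [neg_neg] at this
    exact h3 A B C r0 _ hP' v c τ Lm hv0 hv' hc hτ hτC hL' hle

/-- one sided bound -/
theorem upper_of (h1 : HA1) (h2 : HA2) (h3 : HA3) {A B : Type} [Finite A] [Finite B]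
    {C r0 : ℤ} {P : (ℤ → A) → (ℤ → B) → (ℕ → ℤ) → (ℕ → ℤ) → ℕ → Prop}
    (hP : PathClass A B C r0 P) (ε : ℝ) (hε : 0 < ε) :
    ∃ n0 : ℕ, ∀ n, n0 ≤ n → ∀ a b x y, P a b x y n → (x n : ℝ) - x 0 ≤ ε * n := by
  obtain ⟨v, hv⟩ := h1 A B C r0 P hP 1 0
  have hv0 := speed_nonpos h1 h2 h3 hP v hv
  obtain ⟨n0, -, H⟩ := hv.1 ε hε
  refine ⟨n0, fun n hn a b x y hp => ?_⟩
  have h := H n hn a b x y hp
  have h4 : (v + ε) * (n : ℝ) ≤ ε * n :=
    mul_le_mul_of_nonneg_right (by linarith) (Nat.cast_nonneg n)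
  linarith

/-- two sided bound for the first coordinate -/
theorem abs_of (h1 : HA1) (h2 : HA2) (h3 : HA3) {A B : Type} [Finite A] [Finite B]
    {C r0 : ℤ} {P : (ℤ → A) → (ℤ → B) → (ℕ → ℤ) → (ℕ → ℤ) → ℕ → Prop}
    (hP : PathClass A B C r0 P) (ε : ℝ) (hε : 0 < ε) :
    ∃ n0 : ℕ, ∀ n, n0 ≤ n → ∀ a b x y, P a b x y n → |(x n : ℝ) - x 0| ≤ ε * n := by
  obtain ⟨n1, H1⟩ := upper_of h1 h2 h3 hP ε hε
  obtain ⟨n2, H2⟩ := upper_of h1 h2 h3 hP.refl' ε hε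
  refine ⟨max n1 n2, fun n hn a b x y hp => ?_⟩
  have ha := H1 n (le_trans (le_max_left _ _) hn) a b x y hp
  have hb := H2 n (le_trans (le_max_right _ _) hn) (fun t => a (-t)) b (fun k => -x k) y (by
    show P (fun t => a (- -t)) b (fun k => - -x k) y n
    simpa using hp)
  push_cast at hb
  rw [abs_le]
  constructor <;> linarith

/-- (A4) from (A1), (A2), (A3) -/
theorem sublinear_of (h1 : HA1) (h2 : HA2) (h3 : HA3) {A B : Type} [Finite A] [Finite B]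
    {C r0 : ℤ} {P : (ℤ → A) → (ℤ → B) → (ℕ → ℤ) → (ℕ → ℤ) → ℕ → Prop}
    (hP : PathClass A B C r0 P) (ε : ℝ) (hε : 0 < ε) :
    ∃ n0 : ℕ, ∀ n, n0 ≤ n → ∀ a b x y, P a b x y n →
      |(x n : ℝ) - x 0| ≤ ε * n ∧ |(y n : ℝ) - y 0| ≤ ε * n := by
  obtain ⟨n1, H1⟩ := abs_of h1 h2 h3 hP ε hε
  obtain ⟨n2, H2⟩ := abs_of h1 h2 h3 hP.swap ε hε
  exact ⟨max n1 n2, fun n hn a b x y hp =>
    ⟨H1 n (le_trans (le_max_left _ _) hn) a b x y hp,
      H2 n (le_trans (le_max_right _ _) hn) b a y x hp⟩⟩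

end Vale.Agent.P192.R2.H360
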