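import Vale.Agent.P192.R2.H360.StepOne
import Vale.Agent.P192.R2.H360.StepTwo
import Vale.Agent.P192.R2.H360.Speed
import Vale.Agent.P192.R2.H360.Sub
import Vale.Agent.P192.R2.H360.GPathClass
import Vale.Agent.P192.R2.H102.Uni
import Vale.Agent.P192.R2.H360.D

set_option linter.all false

/-! Assembly. -/

namespace Vale.Agent.P192.R2.H360

/-- (A4) path lemma -/
theorem sublinear {A B : Type} [Finite A] [Finite B] {C r0 : ℤ}
    {P : (ℤ → A) → (ℤ → B) → (ℕ → ℤ) → (ℕ → ℤ) → ℕ → Prop} (hP : PathClass A B C r0 P)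
    (ε : ℝ) (hε : 0 < ε) :
    ∃ n0 : ℕ, ∀ n, n0 ≤ n → ∀ a b x y, P a b x y n →
      |(x n : ℝ) - x 0| ≤ ε * n ∧ |(y n : ℝ) - y 0| ≤ ε * n :=
  sublinear_of (fun _ _ _ _ _ hP => exists_speed hP) (fun _ _ _ _ _ _ _ hP => step_one hP)
    (fun _ _ _ _ _ _ _ hP => step_two hP) hP ε hε

theorem pathLemma : H102.PathLemma :=
  fun A B _ _ M R C hC N h2 hN htor hne ε hε =>
    sublinear (gpath_class R C hC N h2 hN htor hne) ε hε

/-- (C) uniform theorem -/
theorem uniform (G : Type) [Group G] [Group.IsFinitelyPresented G] (hG : IsMulTorsion G)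
    (S : Set G) (hS : Subgroup.closure S = ⊤) (m : ℕ) :
    ∃ N : Subgroup G, N.Normal ∧ N.FiniteIndex ∧
      ∀ (U V : Type) (T₁ : Equiv.Perm U) (T₂ : Equiv.Perm V) (ρ : G →* Equiv.Perm (U × V)),
        (∀ s, (s ∈ S ∨ s⁻¹ ∈ S) → PType T₁ T₂ m (ρ s)) → ∀ g ∈ N, ρ g = 1 :=
  H102.uniform_of pathLemma G hG S hS m

/-- (D1) finite image -/
theorem full (G : Type) [Group G] [Group.IsFinitelyPresented G] (hG : IsMulTorsion G)
    (U V : Type) (T₁ : Equiv.Perm U) (T₂ : Equiv.Perm V) (ρ : G →* Equiv.Perm (U × V))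
    (h : ∀ g, ∃ m, PType T₁ T₂ m (ρ g)) : Finite ρ.range :=
  full_of (fun G _ _ => uniform G) G hG U V T₁ T₂ ρ h

/-- (D2) topological full groups -/
theorem top_full (G : Type) [Group G] [Group.IsFinitelyPresented G] (hG : IsMulTorsion G)
    (U V : Type) [TopologicalSpace U] [TopologicalSpace V] [CompactSpace U] [CompactSpace V]
    (T₁ : Equiv.Perm U) (T₂ : Equiv.Perm V) (ρ : G →* Equiv.Perm (U × V))
    (h : ∀ g, ∃ i j : U × V → ℤ, Continuous i ∧ Continuous j ∧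
      ∀ z, ρ g z = ((T₁ ^ i z) z.1, (T₂ ^ j z) z.2)) : Finite ρ.range :=
  top_full_of (fun G _ _ => uniform G) G hG U V T₁ T₂ ρ h

end Vale.Agent.P192.R2.H360
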