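import Vale.Agent.P192.R2.H360.Cut

set_option linter.all false

/-! Step 1 of the path lemma. -/

namespace Vale.Agent.P192.R2.H360

variable {A B : Type} {C r0 : ℤ} {P : (ℤ → A) → (ℤ → B) → (ℕ → ℤ) → (ℕ → ℤ) → ℕ → Prop}

theorem lip_le (hP : PathClass A B C r0 P) {a b x y n} (h : P a b x y n) (s t : ℕ) (hst : s ≤ t)
    (ht : t ≤ n) : |x t - x s| ≤ C * (t - s) ∧ |y t - y s| ≤ C * (t - s) := by
  induction t, hst using Nat.le_induction with
  | base => simp
  | succ t hst ih =>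
    obtain ⟨h1, h2⟩ := ih (by omega)
    obtain ⟨h3, h4⟩ := hP.lip a b x y n h t (by omega)
    constructor
    · have : x (t + 1) - x s = (x (t + 1) - x t) + (x t - x s) := by ring
      rw [this]
      refine (abs_add_le _ _).trans ?_
      push_cast
      linarith
    · have : y (t + 1) - y s = (y (t + 1) - y t) + (y t - y s) := by ring
      rw [this]
      refine (abs_add_le _ _).trans ?_
      push_cast
      linarith

theorem speed_aff (hP : PathClass A B C r0 P) {α β L : ℝ} (h : Speed P α β L) (ε : ℝ)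
    (hε : 0 < ε) : ∃ K : ℝ, 0 ≤ K ∧ ∀ a b x y n, P a b x y n →
      ∀ s t, s ≤ t → t ≤ n → α * ((x t : ℝ) - x s) + β * ((y t : ℝ) - y s) ≤
        (L + ε) * ((t : ℝ) - s) + K := by
  obtain ⟨n0, hn0, h1⟩ := h.1 ε hε
  refine ⟨(|α| + |β|) * |(C : ℝ)| * n0 + |L + ε| * n0, by positivity, ?_⟩
  intro a b x y n hp s t hst ht
  have hsub := hP.sub a b x y n hp s (t - s) (by omega)
  have e1 : s + (t - s) = t := by omega
  have e2 : ((t - s : ℕ) : ℝ) = (t : ℝ) - s := by rw [Nat.cast_sub hst]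
  rcases Nat.lt_or_ge (t - s) n0 with hlt | hge
  · obtain ⟨h2, h3⟩ := lip_le hP hp s t hst ht
    have hlt' : (t : ℝ) - s ≤ n0 := by rw [← e2]; exact_mod_cast hlt.le
    have hnn : (0 : ℝ) ≤ (t : ℝ) - s := by rw [← e2]; positivity
    have h2' : |(x t : ℝ) - x s| ≤ |(C : ℝ)| * n0 := by
      have : |(x t : ℝ) - x s| ≤ C * ((t : ℝ) - s) := by exact_mod_cast h2
      refine this.trans ?_
      calc (C : ℝ) * ((t : ℝ) - s) ≤ |(C : ℝ)| * ((t : ℝ) - s) :=
            mul_le_mul_of_nonneg_right (le_abs_self _) hnn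
        _ ≤ _ := mul_le_mul_of_nonneg_left hlt' (abs_nonneg _)
    have h3' : |(y t : ℝ) - y s| ≤ |(C : ℝ)| * n0 := by
      have : |(y t : ℝ) - y s| ≤ C * ((t : ℝ) - s) := by exact_mod_cast h3
      refine this.trans ?_
      calc (C : ℝ) * ((t : ℝ) - s) ≤ |(C : ℝ)| * ((t : ℝ) - s) :=
            mul_le_mul_of_nonneg_right (le_abs_self _) hnn
        _ ≤ _ := mul_le_mul_of_nonneg_left hlt' (abs_nonneg _)
    have h4 : α * ((x t : ℝ) - x s) ≤ |α| * (|(C : ℝ)| * n0) := by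
      refine (le_abs_self _).trans ?_
      rw [abs_mul]
      exact mul_le_mul_of_nonneg_left h2' (abs_nonneg _)
    have h5 : β * ((y t : ℝ) - y s) ≤ |β| * (|(C : ℝ)| * n0) := by
      refine (le_abs_self _).trans ?_
      rw [abs_mul]
      exact mul_le_mul_of_nonneg_left h3' (abs_nonneg _)
    have h6 : -((L + ε) * ((t : ℝ) - s)) ≤ |L + ε| * n0 := by
      rw [← neg_mul]
      calc -(L + ε) * ((t : ℝ) - s) ≤ |L + ε| * ((t : ℝ) - s) :=
            mul_le_mul_of_nonneg_right (neg_le_abs _) hnn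
        _ ≤ _ := mul_le_mul_of_nonneg_left hlt' (abs_nonneg _)
    nlinarith
  · have h2 := h1 (t - s) hge a b _ _ hsub
    simp only [e1, Nat.add_zero, e2] at h2
    have : 0 ≤ (|α| + |β|) * |(C : ℝ)| * n0 + |L + ε| * n0 := by positivity
    linarith

theorem C_nonneg (hP : PathClass A B C r0 P) : 0 ≤ C := by
  obtain ⟨a, b, x, y, h⟩ := hP.ne 1
  exact (abs_nonneg _).trans (hP.lip a b x y 1 h 0 (by omega)).1

/-- range of a coordinate between two cuts -/
theorem cut_range (hC : 0 ≤ C) (x : ℕ → ℤ) (n0 M : ℕ) (hn0 : 0 < n0)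
    (hl : ∀ s t : ℕ, s ≤ t → t ≤ n0 * M → |x t - x s| ≤ C * (t - s)) (i j : ℕ) (hij : i < j)
    (hj : j ≤ M)
    (hi1 : ∀ k, i < k → k ≤ M → x (n0 * i) < x (n0 * k))
    (hj1 : ∀ k, k < j → x (n0 * k) < x (n0 * j)) (r : ℤ) (hr : C * n0 ≤ r) :
    ∀ k, n0 * i ≤ k → k ≤ n0 * j →
      min (x (n0 * i)) (x (n0 * j)) - r ≤ x k ∧ x k ≤ max (x (n0 * i)) (x (n0 * j)) + r := by
  intro k hk1 hk2
  have hlt := hi1 j hij hj
  rw [min_eq_left hlt.le, max_eq_right hlt.le]
  set q := k / n0 with hq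
  have hq1 : n0 * q ≤ k := Nat.mul_div_le k n0
  have hq2 : k < n0 * q + n0 := by
    have := Nat.lt_mul_div_succ k hn0
    rw [Nat.mul_add, Nat.mul_one] at this
    exact this
  have hiq : i ≤ q := by
    rw [hq]; exact (Nat.le_div_iff_mul_le hn0).2 (by rw [Nat.mul_comm]; exact hk1)
  have hqj : q ≤ j := by
    rw [hq]
    exact Nat.div_le_of_le_mul hk2
  have h1 := hl (n0 * q) k hq1 (hk2.trans (Nat.mul_le_mul_left _ hj))
  have h2 : C * ((k : ℤ) - (n0 * q : ℕ)) ≤ C * n0 := by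
    apply mul_le_mul_of_nonneg_left _ hC
    have : (k : ℤ) < (n0 * q : ℕ) + n0 := by exact_mod_cast hq2
    linarith
  have h3 := abs_le.1 (h1.trans (h2.trans hr))
  have h4 : x (n0 * i) ≤ x (n0 * q) := by
    rcases Nat.eq_or_lt_of_le hiq with h | h
    · rw [← h]
    · exact (hi1 q h (hqj.trans hj)).le
  have h5 : x (n0 * q) ≤ x (n0 * j) := by
    rcases Nat.eq_or_lt_of_le hqj with h | h
    · rw [h]
    · exact (hj1 q h).le
  constructor <;> linarith [h3.1, h3.2]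

end Vale.Agent.P192.R2.H360
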