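import Vale.Agent.P192.R2.H360.Defs

set_option linter.all false

/-! The cut lemma. -/

namespace Vale.Agent.P192.R2.H360

open Classical in
/-- number of left failures in `[0, M]` -/
noncomputable def lf (S : ℕ → ℝ) (M : ℕ) : ℕ :=
  ((Finset.range (M + 1)).filter (fun i => ∃ j, j < i ∧ S i ≤ S j)).card

theorem lf_zero (S : ℕ → ℝ) : lf S 0 = 0 := by
  classical
  unfold lf
  rw [Finset.card_eq_zero, Finset.filter_eq_empty_iff]
  rintro i hi ⟨j, hj, -⟩
  have : i = 0 := by simpa using hi
  omega

theorem lf_succ (S : ℕ → ℝ) (M : ℕ) :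
    ((∃ j, j < M + 1 ∧ S (M + 1) ≤ S j) → lf S (M + 1) = lf S M + 1) ∧
    ((¬ ∃ j, j < M + 1 ∧ S (M + 1) ≤ S j) → lf S (M + 1) = lf S M) := by
  classical
  unfold lf
  constructor
  · intro h
    rw [Finset.range_add_one (n := M + 1), Finset.filter_insert, if_pos h,
      Finset.card_insert_of_notMem]
    simp
  · intro h
    rw [Finset.range_add_one (n := M + 1), Finset.filter_insert, if_neg h]

theorem lf_bound (S : ℕ → ℝ) (D : ℝ) (hD : 0 ≤ D) (M : ℕ)
    (h : ∀ i, i < M → S (i + 1) - S i ≤ D) :
    ∀ i, i ≤ M → S i - S 0 + D * lf S M ≤ D * M := by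
  induction M with
  | zero =>
    intro i hi
    obtain rfl : i = 0 := by omega
    rw [lf_zero]; simp
  | succ M ih =>
    have ih' := ih (fun i hi => h i (by omega))
    have h0 := ih' 0 (by omega)
    intro i hi
    obtain ⟨h1, h2⟩ := lf_succ S M
    by_cases hf : ∃ j, j < M + 1 ∧ S (M + 1) ≤ S j
    · rw [h1 hf]
      push_cast
      rcases Nat.lt_or_ge i (M + 1) with hi' | hi'
      · have := ih' i (by omega)
        nlinarith
      · obtain rfl : i = M + 1 := by omega
        obtain ⟨j, hj, hj'⟩ := hf
        have := ih' j (by omega)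
        nlinarith
    · rw [h2 hf]
      push_cast
      rcases Nat.lt_or_ge i (M + 1) with hi' | hi'
      · have := ih' i (by omega)
        nlinarith
      · obtain rfl : i = M + 1 := by omega
        have := ih' M (by omega)
        have := h M (by omega)
        nlinarith

open Classical in
/-- (A0) cut lemma, left failures -/
theorem cut_left (M : ℕ) (S e : ℕ → ℝ) (D : ℝ) (hD : 0 ≤ D) (he : ∀ i, i < M → 0 ≤ e i)
    (h : ∀ i, i < M → D - e i ≤ S (i + 1) - S i) :
    D * (((Finset.range (M + 1)).filter (fun i => ∃ j, j < i ∧ S i ≤ S j)).card : ℝ) ≤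
      ∑ i ∈ Finset.range M, e i := by
  set T : ℕ → ℝ := fun k => ∑ i ∈ Finset.range k, (D - e i) with hT
  have hTs : ∀ k, T (k + 1) - T k = D - e k := by
    intro k; simp only [hT]; rw [Finset.sum_range_succ]; ring
  have hmono : ∀ k j, j ≤ k → k ≤ M → T k - T j ≤ S k - S j := by
    intro k
    induction k with
    | zero => intro j hj _; obtain rfl : j = 0 := by omega
              simp
    | succ k ih =>
      intro j hj hk
      rcases Nat.lt_or_ge j (k + 1) with hj' | hj'
      · have h1 := ih j (by omega) (by omega)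
        have h2 := h k (by omega)
        have h3 := hTs k
        linarith
      · obtain rfl : j = k + 1 := by omega
        simp
  have hb := lf_bound T D hD M (fun i hi => by rw [hTs]; linarith [he i hi]) M le_rfl
  have hle : (((Finset.range (M + 1)).filter (fun i => ∃ j, j < i ∧ S i ≤ S j)).card : ℝ) ≤
      (lf T M : ℝ) := by
    unfold lf
    norm_cast
    apply Finset.card_le_card
    intro i hi
    simp only [Finset.mem_filter, Finset.mem_range] at hi ⊢
    obtain ⟨hi, j, hj, hj'⟩ := hi
    refine ⟨hi, j, hj, ?_⟩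
    have := hmono i j (by omega) (by omega)
    linarith
  have hTM : T M - T 0 = D * M - ∑ i ∈ Finset.range M, e i := by
    simp only [hT]
    rw [Finset.sum_sub_distrib]
    simp; ring
  nlinarith [mul_le_mul_of_nonneg_left hle hD]

open Classical in
/-- (A0) cut lemma, right failures -/
theorem cut_right (M : ℕ) (S e : ℕ → ℝ) (D : ℝ) (hD : 0 ≤ D) (he : ∀ i, i < M → 0 ≤ e i)
    (h : ∀ i, i < M → D - e i ≤ S (i + 1) - S i) :
    D * (((Finset.range (M + 1)).filter (fun i => ∃ j, i < j ∧ j ≤ M ∧ S j ≤ S i)).card : ℝ) ≤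
      ∑ i ∈ Finset.range M, e i := by
  have key := cut_left M (fun k => - S (M - k)) (fun k => e (M - 1 - k)) D hD
    (fun i hi => he _ (by omega)) (fun i hi => by
      have := h (M - 1 - i) (by omega)
      have e1 : M - 1 - i + 1 = M - i := by omega
      have e2 : M - (i + 1) = M - 1 - i := by omega
      rw [e1] at this
      simp only [e2]
      linarith)
  rw [Finset.sum_range_reflect] at key
  refine le_trans ?_ key
  apply mul_le_mul_of_nonneg_left _ hD
  norm_cast
  apply Finset.card_le_card_of_injOn (fun i => M - i)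
  · intro i hi
    simp only [Finset.coe_filter, Finset.mem_range, Set.mem_setOf_eq] at hi ⊢
    obtain ⟨hi, j, hj, hjM, hj'⟩ := hi
    refine ⟨by omega, M - j, by omega, ?_⟩
    have e1 : M - (M - i) = i := by omega
    have e2 : M - (M - j) = j := by omega
    rw [e1, e2]; linarith
  · intro i hi j hj hij
    simp only [Finset.coe_filter, Finset.mem_range, Set.mem_setOf_eq] at hi hj hij
    omega

end Vale.Agent.P192.R2.H360
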