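import Mathlib

set_option linter.all false

/-! Paths in product systems over the grid: definitions. -/

namespace Vale.Agent.P192.R2.H360

/-- the windows of radius `r` of `a` at `x` and of `a'` at `x'` agree -/
def win {A : Type} (r : ℤ) (a : ℤ → A) (x : ℤ) (a' : ℤ → A) (x' : ℤ) : Prop :=
  ∀ t : ℤ, |t| ≤ r → a (x + t) = a' (x' + t)

/-- one coordinate of a matched pair: equal windows at the times `i` and `j`; if the coordinate
differs, the path between the two times stays in the range of its endpoints up to `r` -/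
def cmatch {A : Type} (a : ℤ → A) (x : ℕ → ℤ) (r : ℤ) (i j : ℕ) : Prop :=
  win r a (x i) a (x j) ∧
    (x i ≠ x j → ∀ k, i ≤ k → k ≤ j → min (x i) (x j) - r ≤ x k ∧ x k ≤ max (x i) (x j) + r)

/-- matched pair of times of the path `(x, y)` -/
def Matched {A B : Type} (a : ℤ → A) (b : ℤ → B) (x y : ℕ → ℤ) (r : ℤ) (i j : ℕ) : Prop :=
  (x i ≠ x j ∨ y i ≠ y j) ∧ cmatch a x r i j ∧ cmatch b y r i j

/-- a class of paths without matched pairs, closed under subpaths -/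
structure PathClass (A B : Type) (C r0 : ℤ)
    (P : (ℤ → A) → (ℤ → B) → (ℕ → ℤ) → (ℕ → ℤ) → ℕ → Prop) : Prop where
  lip : ∀ a b x y n, P a b x y n → ∀ k, k < n → |x (k + 1) - x k| ≤ C ∧ |y (k + 1) - y k| ≤ C
  sub : ∀ a b x y n, P a b x y n → ∀ s t, s + t ≤ n →
    P a b (fun k => x (s + k)) (fun k => y (s + k)) t
  nomat : ∀ a b x y n, P a b x y n → ∀ r, r0 ≤ r → ∀ i j, i < j → j ≤ n →
    ¬ Matched a b x y r i j
  ne : ∀ n, ∃ a b x y, P a b x y n

/-- letters are `(i, true)` for the generator `i` and `(i, false)` for its inverse; the letter `l`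
moves the point `z` by `δ l (a z.1) (b z.2)` -/
def act {A B : Type} {M : ℕ} (δ : Fin M × Bool → A → B → ℤ × ℤ) (a : ℤ → A) (b : ℤ → B)
    (l : Fin M × Bool) (z : ℤ × ℤ) : ℤ × ℤ :=
  z + δ l (a z.1) (b z.2)

/-- the word `w` applied to `z`, last letter first -/
def run {A B : Type} {M : ℕ} (δ : Fin M × Bool → A → B → ℤ × ℤ) (a : ℤ → A) (b : ℤ → B)
    (w : List (Fin M × Bool)) (z : ℤ × ℤ) : ℤ × ℤ :=
  w.foldr (act δ a b) z

/-- the rule `δ` defines, over the colourings `a`, `b`, an action of the group with relators `R` -/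
structure Good {A B : Type} {M : ℕ} (R : Set (FreeGroup (Fin M))) (C : ℤ)
    (δ : Fin M × Bool → A → B → ℤ × ℤ) (a : ℤ → A) (b : ℤ → B) : Prop where
  bd : ∀ l α β, |(δ l α β).1| ≤ C ∧ |(δ l α β).2| ≤ C
  inv : ∀ i ε z, act δ a b (i, ε) (act δ a b (i, !ε) z) = z
  rel : ∀ w ∈ R, ∀ z, run δ a b w.toWord z = z

/-- paths in good systems -/
def GPath {A B : Type} {M : ℕ} (R : Set (FreeGroup (Fin M))) (C : ℤ)
    (a : ℤ → A) (b : ℤ → B) (x y : ℕ → ℤ) (n : ℕ) : Prop :=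
  ∃ δ : Fin M × Bool → A → B → ℤ × ℤ, Good R C δ a b ∧
    ∀ k, k < n → (x (k + 1), y (k + 1)) = (x k, y k) ∨
      ∃ l, (x (k + 1), y (k + 1)) = act δ a b l (x k, y k)

/-- `h` moves `(u, v)` by powers of `T₁`, `T₂` with exponents of absolute value at most `m`
depending only on colours of `u` and of `v`, with `m` colours each -/
def PType {U V : Type} (T₁ : Equiv.Perm U) (T₂ : Equiv.Perm V) (m : ℕ) (h : U × V → U × V) :
    Prop :=
  ∃ (a : U → Fin m) (b : V → Fin m) (f : Fin m → Fin m → ℤ × ℤ),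
    (∀ α β, |(f α β).1| ≤ m ∧ |(f α β).2| ≤ m) ∧
    ∀ u v, h (u, v) = ((T₁ ^ (f (a u) (b v)).1) u, (T₂ ^ (f (a u) (b v)).2) v)

/-- `L` is the speed of the class `P` for the functional `α x + β y` -/
def Speed {A B : Type} (P : (ℤ → A) → (ℤ → B) → (ℕ → ℤ) → (ℕ → ℤ) → ℕ → Prop)
    (α β L : ℝ) : Prop :=
  (∀ ε : ℝ, 0 < ε → ∃ n0 : ℕ, 1 ≤ n0 ∧ ∀ n, n0 ≤ n → ∀ a b x y, P a b x y n →
    α * ((x n : ℝ) - x 0) + β * ((y n : ℝ) - y 0) ≤ (L + ε) * n) ∧
  (∀ n : ℕ, ∃ a b x y, P a b x y n ∧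
    L * n - 1 ≤ α * ((x n : ℝ) - x 0) + β * ((y n : ℝ) - y 0))

end Vale.Agent.P192.R2.H360
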