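import Vale.Agent.P192.R2.H360.Prune

set_option linter.all false

/-! The topological full group of the full shift: the equivalence. -/

namespace Vale.Agent.P192.R2.H360

open Vale.Agent.P192 Vale.Agent.P192.H437

/-- statement of (P7) -/
def ShiftStmt : Prop := ∀ (H : Type) [Group H], FPB H → ∀ (A : Type) [Finite A]
    [TopologicalSpace A] [DiscreteTopology A] (G : Type) [Group G] [Group.IsFinitelyPresented G],
    IsMulTorsion G → ∀ (ρ : G →* Equiv.Perm (H → A)),
    (∀ g, ∃ c : (H → A) → H, IsLocallyConstant c ∧ ∀ ω, ρ g ω = fun k => ω (k * c ω)) →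
    Finite ρ.range

/-- the shift by `h` -/
def shiftHom (H A : Type) [Group H] : H →* Equiv.Perm (H → A) where
  toFun h := ⟨fun ω k => ω (k * h), fun ω k => ω (k * h⁻¹), fun ω => by funext k; simp,
    fun ω => by funext k; simp⟩
  map_one' := by ext ω k; simp
  map_mul' g h := by
    ext ω k
    show ω (k * (g * h)) = ω (k * g * h)
    rw [mul_assoc]

theorem shiftHom_injective (H A : Type) [Group H] [Nontrivial A] :
    Function.Injective (shiftHom H A) := by
  classical
  rw [injective_iff_map_eq_one]
  intro h hh
  obtain ⟨a, b, hab⟩ := exists_pair_ne A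
  by_contra hne
  have h1 := congrFun (congrArg (fun f : Equiv.Perm (H → A) =>
    f (fun k => if k = 1 then a else b)) hh) 1
  have h2 : (if (1 : H) * h = 1 then a else b) = (if (1 : H) = 1 then a else b) := h1
  rw [one_mul, if_neg hne, if_pos rfl] at h2
  exact hab h2.symm

/-- the topological full group of the full shift over `H` is in the class `FPB` iff `H` is -/
theorem full_shift_iff_of (hP : ShiftStmt) (H : Type) [Group H] (A : Type) [Finite A]
    [Nontrivial A] [TopologicalSpace A] [DiscreteTopology A] :
    FPB H ↔ ∀ (G : Type) [Group G] [Group.IsFinitelyPresented G], IsMulTorsion G →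
      ∀ (ρ : G →* Equiv.Perm (H → A)),
      (∀ g, ∃ c : (H → A) → H, IsLocallyConstant c ∧ ∀ ω, ρ g ω = fun k => ω (k * c ω)) →
      Finite ρ.range := by
  constructor
  · intro hH G _ _ hG ρ hρ
    exact hP H hH A G hG ρ hρ
  · intro h Γ _ hfp hper f
    have h1 := h Γ (fun x => hper x) ((shiftHom H A).comp f) (fun g =>
      ⟨fun _ => f g, IsLocallyConstant.const _, fun ω => rfl⟩)
    have h2 : ((shiftHom H A).comp f).range = f.range.map (shiftHom H A) := by
      rw [MonoidHom.range_comp]
    rw [h2] at h1
    have h3 : Function.Injective ((shiftHom H A).subgroupMap f.range) := by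
      intro x y hxy
      have := congrArg Subtype.val hxy
      exact Subtype.ext (shiftHom_injective H A this)
    exact Finite.of_injective _ h3

end Vale.Agent.P192.R2.H360
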