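import Vale.Agent.P192.R2.H360.Defs

set_option linter.all false

/-! Coarse lines: definitions. -/

namespace Vale.Agent.P192.R2.H360

/-- `U` with the coordinate `p` is a union of coarse lines: at most `k` points have the same
coordinate (the line, and the place on the line) -/
def Coarse {U I : Type} (k : ℕ) (p : U → I × ℤ) : Prop :=
  ∀ z, {u | p u = z}.encard ≤ k

/-- `h (u, v) = (φ u β, ψ α v)`, where `α` is one of `m` colours of `u`, `β` is one of `m` colours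
of `v`, and `φ`, `ψ` move points along their lines by at most `m` -/
def LType {U V I J : Type} (p : U → I × ℤ) (q : V → J × ℤ) (m : ℕ) (h : U × V → U × V) : Prop :=
  ∃ (a : U → Fin m) (b : V → Fin m) (φ : U → Fin m → U) (ψ : Fin m → V → V),
    (∀ u β, (p (φ u β)).1 = (p u).1 ∧ |(p (φ u β)).2 - (p u).2| ≤ m) ∧
    (∀ α v, (q (ψ α v)).1 = (q v).1 ∧ |(q (ψ α v)).2 - (q v).2| ≤ m) ∧
    ∀ u v, h (u, v) = (φ u (b v), ψ (a u) v)

/-- statement (C), proved in Main.lean -/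
def UStmt : Prop := ∀ (G : Type) [Group G] [Group.IsFinitelyPresented G], IsMulTorsion G →
  ∀ (S : Set G), Subgroup.closure S = ⊤ → ∀ m : ℕ,
    ∃ N : Subgroup G, N.Normal ∧ N.FiniteIndex ∧
      ∀ (U V : Type) (T₁ : Equiv.Perm U) (T₂ : Equiv.Perm V) (ρ : G →* Equiv.Perm (U × V)),
        (∀ s, (s ∈ S ∨ s⁻¹ ∈ S) → PType T₁ T₂ m (ρ s)) → ∀ g ∈ N, ρ g = 1

/-- statement of (T1) -/
def LStmt : Prop := ∀ (G : Type) [Group G] [Group.IsFinitelyPresented G], IsMulTorsion G →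
  ∀ (S : Set G), Subgroup.closure S = ⊤ → ∀ m k : ℕ,
    ∃ N : Subgroup G, N.Normal ∧ N.FiniteIndex ∧
      ∀ (U V I J : Type) (p : U → I × ℤ) (q : V → J × ℤ), Coarse k p → Coarse k q →
        ∀ ρ : G →* Equiv.Perm (U × V),
        (∀ s, (s ∈ S ∨ s⁻¹ ∈ S) → LType p q m (ρ s)) → ∀ g ∈ N, ρ g = 1

end Vale.Agent.P192.R2.H360
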