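import Vale.Agent.P192.R2.H577.Gro
import Vale.Agent.P192.H663.Defs

set_option linter.all false

/-! Pruning: definitions. -/

namespace Vale.Agent.P192.R2.H360

open Vale.Agent.P192 Vale.Agent.P192.H437

/-- the hypotheses of the pruning theorem: for each configuration `ω` in `Ω ∪ Ω₀` the group acts on
`Y` by `act ω`; the generators at `y` read `ω` only on the set `Rd y` of at most `m` points; orbits
of the background configurations `o` in `Ω₀` have at most `m` points; each part of each `ω` in `Ω`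
can be continued by a background configuration -/
structure Prune {G : Type} [Group G] (S : Set G) (m : ℕ) {Y A : Type}
    (Ω Ω₀ : Set (Y → A)) (act : (Y → A) → (G →* Equiv.Perm Y)) (Rd : Y → Finset Y) : Prop where
  self : ∀ y, y ∈ Rd y
  card : ∀ y, (Rd y).card ≤ m
  dual : ∀ k, {y | k ∈ Rd y}.encard ≤ m
  loc : ∀ s, (s ∈ S ∨ s⁻¹ ∈ S) → ∀ ω ω' : Y → A, (ω ∈ Ω ∨ ω ∈ Ω₀) → (ω' ∈ Ω ∨ ω' ∈ Ω₀) → ∀ y,
    (∀ k ∈ Rd y, ω k = ω' k) → act ω s y = act ω' s y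
  back : ∀ o ∈ Ω₀, ∀ y, {z | ∃ g, act o g y = z}.encard ≤ m
  few : ∀ s, (s ∈ S ∨ s⁻¹ ∈ S) → ∀ y, {z | ∃ ω ∈ Ω, act ω s y = z}.encard ≤ m
  glue : ∀ ω ∈ Ω, ∀ K : Finset Y, ∃ ω' ∈ Ω, ∃ o ∈ Ω₀, ∃ K' : Finset Y, K ⊆ K' ∧
    K'.card ≤ m * K.card ∧ (∀ k ∈ K, ω' k = ω k) ∧ ∀ k, k ∉ K' → ω' k = o k

end Vale.Agent.P192.R2.H360
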