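import Vale.Agent.P192.R2.H360.Base

set_option linter.all false

/-! Step 1 of the path lemma. -/

namespace Vale.Agent.P192.R2.H360

variable {A B : Type} {C r0 : ℤ} {P : (ℤ → A) → (ℤ → B) → (ℕ → ℤ) → (ℕ → ℤ) → ℕ → Prop}

open Classical in
/-- strict two-sided cuts among the block ends -/
noncomputable def cuts (x : ℕ → ℤ) (n0 M : ℕ) : Finset ℕ :=
  (Finset.range (M + 1)).filter
    (fun i => (∀ j, j < i → x (n0 * j) < x (n0 * i)) ∧
      (∀ j, i < j → j ≤ M → x (n0 * i) < x (n0 * j)))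

theorem mem_cuts {x : ℕ → ℤ} {n0 M i : ℕ} : i ∈ cuts x n0 M ↔
    i ≤ M ∧ (∀ j, j < i → x (n0 * j) < x (n0 * i)) ∧
      (∀ j, i < j → j ≤ M → x (n0 * i) < x (n0 * j)) := by
  classical
  unfold cuts
  rw [Finset.mem_filter, Finset.mem_range, Nat.lt_succ_iff]

/-- the number of indices which are not cuts -/
theorem cuts_card (x : ℕ → ℤ) (n0 M : ℕ) (e : ℕ → ℝ) (D : ℝ) (hD : 0 ≤ D)
    (he : ∀ i, i < M → 0 ≤ e i)
    (h : ∀ i, i < M → D - e i ≤ (x (n0 * (i + 1)) : ℝ) - x (n0 * i)) :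
    D * (M + 1) ≤ D * ((cuts x n0 M).card : ℝ) + 2 * ∑ i ∈ Finset.range M, e i := by
  classical
  set S : ℕ → ℝ := fun i => (x (n0 * i) : ℝ) with hS
  have hL := cut_left M S e _ hD he h
  have hR := cut_right M S e _ hD he h
  set LF := (Finset.range (M + 1)).filter (fun i => ∃ j, j < i ∧ S i ≤ S j) with hLF
  set RF := (Finset.range (M + 1)).filter (fun i => ∃ j, i < j ∧ j ≤ M ∧ S j ≤ S i) with hRF
  have hcov : Finset.range (M + 1) ⊆ cuts x n0 M ∪ (LF ∪ RF) := by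
    intro i hi
    simp only [hLF, hRF, Finset.mem_union, Finset.mem_filter, mem_cuts]
    by_cases hA : ∃ j, j < i ∧ S i ≤ S j
    · exact Or.inr (Or.inl ⟨hi, hA⟩)
    · by_cases hB : ∃ j, i < j ∧ j ≤ M ∧ S j ≤ S i
      · exact Or.inr (Or.inr ⟨hi, hB⟩)
      · refine Or.inl ⟨Nat.lt_succ_iff.1 (Finset.mem_range.1 hi), ?_, ?_⟩
        · intro j hj
          by_contra hc
          refine hA ⟨j, hj, ?_⟩
          simp only [hS]
          exact_mod_cast not_lt.1 hc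
        · intro j hj hj'
          by_contra hc
          refine hB ⟨j, hj, hj', ?_⟩
          simp only [hS]
          exact_mod_cast not_lt.1 hc
  have hcard : (M : ℝ) + 1 ≤ (cuts x n0 M).card + (LF.card + RF.card) := by
    have h2 := Finset.card_le_card hcov
    have h3 := Finset.card_union_le (cuts x n0 M) (LF ∪ RF)
    have h4 := Finset.card_union_le LF RF
    rw [Finset.card_range] at h2
    have : M + 1 ≤ (cuts x n0 M).card + (LF.card + RF.card) := by omega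
    exact_mod_cast this
  have := mul_le_mul_of_nonneg_left hcard hD
  linarith

/-- two cuts with the same second coordinate have different windows -/
theorem cuts_match (hP : PathClass A B C r0 P) {a b x y} {n0 M : ℕ} (hn0 : 0 < n0)
    (hpath : P a b x y (n0 * M)) (r : ℤ) (hr1 : C * n0 ≤ r) (hr2 : r0 ≤ r) (i j : ℕ)
    (hi : i ∈ cuts x n0 M) (hj : j ∈ cuts x n0 M) (hij : i < j) (hy : y (n0 * i) = y (n0 * j))
    (hw : ∀ t : ℤ, |t| ≤ r → a (x (n0 * i) + t) = a (x (n0 * j) + t)) : False := by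
  obtain ⟨hiM, hi1, hi2⟩ := mem_cuts.1 hi
  obtain ⟨hjM, hj1, hj2⟩ := mem_cuts.1 hj
  have hC := C_nonneg hP
  have hlip : ∀ s t : ℕ, s ≤ t → t ≤ n0 * M → |x t - x s| ≤ C * (t - s) :=
    fun s t hs ht => (lip_le hP hpath s t hs ht).1
  refine hP.nomat a b x y _ hpath r hr2 (n0 * i) (n0 * j) (Nat.mul_lt_mul_of_pos_left hij hn0)
    (Nat.mul_le_mul_left _ (by omega)) ⟨Or.inl ?_, ⟨hw, ?_⟩, ⟨?_, ?_⟩⟩
  · exact (hi2 j hij (by omega)).ne
  · intro _
    exact cut_range hC x n0 M hn0 hlip i j hij (by omega) hi2 hj1 r hr1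
  · rw [hy]; intro t _; rfl
  · intro h; exact absurd hy h

theorem finite_win [Finite A] (r : ℤ) : Finite ({t : ℤ // |t| ≤ r} → A) := by
  have hfinI : Finite {t : ℤ // |t| ≤ r} := by
    apply Set.Finite.to_subtype
    refine (Set.finite_Icc (-r) r).subset ?_
    intro t ht
    exact abs_le.1 ht
  infer_instance

/-- few cuts have the same second coordinate -/
theorem cuts_fiber [Finite A] (hP : PathClass A B C r0 P) {a b x y} {n0 M : ℕ} (hn0 : 0 < n0)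
    (hpath : P a b x y (n0 * M)) (r : ℤ) (hr1 : C * n0 ≤ r) (hr2 : r0 ≤ r) (z : ℤ) :
    ((cuts x n0 M).filter (fun i => y (n0 * i) = z)).card ≤
      Nat.card ({t : ℤ // |t| ≤ r} → A) := by
  classical
  have := finite_win (A := A) r
  have hFW : Fintype ({t : ℤ // |t| ≤ r} → A) := Fintype.ofFinite _
  rw [Nat.card_eq_fintype_card, ← Finset.card_univ]
  apply Finset.card_le_card_of_injOn
    (fun i => (fun t : {t : ℤ // |t| ≤ r} => a (x (n0 * i) + t.1)))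
  · intro i _; exact Finset.mem_coe.2 (Finset.mem_univ _)
  · intro i hi j hj hij
    simp only [Finset.coe_filter, Set.mem_setOf_eq] at hi hj
    by_contra hne
    rcases Nat.lt_or_gt_of_ne hne with h | h
    · exact cuts_match hP hn0 hpath r hr1 hr2 i j hi.1 hj.1 h (hi.2.trans hj.2.symm)
        (fun t ht => congrFun hij ⟨t, ht⟩)
    · exact cuts_match hP hn0 hpath r hr1 hr2 j i hj.1 hi.1 h (hj.2.trans hi.2.symm)
        (fun t ht => (congrFun hij ⟨t, ht⟩).symm)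

/-- the cuts spread in the second coordinate -/
theorem cuts_spread [Finite A] (hP : PathClass A B C r0 P) {a b x y} {n0 M : ℕ} (hn0 : 0 < n0)
    (hpath : P a b x y (n0 * M)) (r : ℤ) (hr1 : C * n0 ≤ r) (hr2 : r0 ≤ r) (K : ℕ)
    (hK : Nat.card ({t : ℤ // |t| ≤ r} → A) ≤ K) (hne : (cuts x n0 M).Nonempty) :
    ∃ i1 i2, i1 ≤ M ∧ i2 ≤ M ∧
      ((cuts x n0 M).card : ℝ) ≤ K * ((y (n0 * i2) : ℝ) - y (n0 * i1) + 1) := by
  classical
  set I := cuts x n0 M with hI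
  obtain ⟨i1, hi1, hmin⟩ := Finset.exists_min_image I (fun i => y (n0 * i)) hne
  obtain ⟨i2, hi2, hmax⟩ := Finset.exists_max_image I (fun i => y (n0 * i)) hne
  refine ⟨i1, i2, (mem_cuts.1 hi1).1, (mem_cuts.1 hi2).1, ?_⟩
  have h2 := Finset.card_le_mul_card_image (f := fun i => y (n0 * i)) I K
    (fun z _ => (cuts_fiber hP hn0 hpath r hr1 hr2 z).trans hK)
  have h3 : I.image (fun i => y (n0 * i)) ⊆ Finset.Icc (y (n0 * i1)) (y (n0 * i2)) := by
    intro z hz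
    obtain ⟨i, hi, rfl⟩ := Finset.mem_image.1 hz
    exact Finset.mem_Icc.2 ⟨hmin i hi, hmax i hi⟩
  have h4 := Finset.card_le_card h3
  rw [Int.card_Icc] at h4
  have h5 : y (n0 * i1) ≤ y (n0 * i2) := hmin i2 hi2
  have h6 : ((I.image (fun i => y (n0 * i))).card : ℤ) ≤ y (n0 * i2) + 1 - y (n0 * i1) := by
    have : ((y (n0 * i2) + 1 - y (n0 * i1)).toNat : ℤ) = y (n0 * i2) + 1 - y (n0 * i1) :=
      Int.toNat_of_nonneg (by linarith)
    rw [← this]
    exact_mod_cast h4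
  have h7 : ((I.image (fun i => y (n0 * i))).card : ℝ) ≤ (y (n0 * i2) : ℝ) + 1 - y (n0 * i1) := by
    exact_mod_cast h6
  have hK0 : (0 : ℝ) ≤ K := Nat.cast_nonneg K
  calc (I.card : ℝ) ≤ K * ((I.image (fun i => y (n0 * i))).card : ℝ) := by exact_mod_cast h2
    _ ≤ K * ((y (n0 * i2) : ℝ) + 1 - y (n0 * i1)) := mul_le_mul_of_nonneg_left h7 hK0
    _ = _ := by ring

/-- many cuts when the speed is almost maximal -/
theorem many_cuts (hP : PathClass A B C r0 P) {v : ℝ} (hv : 0 < v) {n0 M : ℕ} (hn0 : 0 < n0)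
    (hn : ∀ a b x y, P a b x y n0 → (1 : ℝ) * ((x n0 : ℝ) - x 0) + 0 * ((y n0 : ℝ) - y 0) ≤
      (v + v / 8) * n0) {a b x y} (hpath : P a b x y (n0 * M))
    (hval : v * ((n0 * M : ℕ) : ℝ) - 1 ≤
      1 * ((x (n0 * M) : ℝ) - x 0) + 0 * ((y (n0 * M) : ℝ) - y 0))
    (hMb : 8 < (M : ℝ) * (v * n0)) :
    (M : ℝ) / 2 ≤ (cuts x n0 M).card := by
  have hn0' : (0 : ℝ) < n0 := by exact_mod_cast hn0
  have hN : ((n0 * M : ℕ) : ℝ) = n0 * M := by push_cast; ring
  set S : ℕ → ℝ := fun i => (x (n0 * i) : ℝ) with hS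
  set e : ℕ → ℝ := fun i => (v + v / 8) * n0 - (S (i + 1) - S i) with he
  have he0 : ∀ i, i < M → 0 ≤ e i := by
    intro i hi
    have hle : n0 * i + n0 ≤ n0 * M := by
      calc n0 * i + n0 = n0 * (i + 1) := by ring
        _ ≤ n0 * M := Nat.mul_le_mul_left _ hi
    have h2 := hn a b _ _ (hP.sub a b x y _ hpath (n0 * i) n0 hle)
    simp only [Nat.add_zero] at h2
    have e1 : n0 * (i + 1) = n0 * i + n0 := by ring
    simp only [he, hS, e1]
    linarith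
  have hdiff : ∀ i, i < M → (v + v / 8) * n0 - e i ≤ (x (n0 * (i + 1)) : ℝ) - x (n0 * i) := by
    intro i hi
    simp only [he, hS]; linarith
  have hsum : ∑ i ∈ Finset.range M, e i ≤ v / 8 * n0 * M + 1 := by
    simp only [he]
    rw [Finset.sum_sub_distrib, Finset.sum_range_sub, Finset.sum_const, Finset.card_range,
      nsmul_eq_mul]
    have : S M - S 0 = (x (n0 * M) : ℝ) - x 0 := by simp [hS]
    rw [this]
    rw [hN] at hval
    linarith
  have hD : 0 ≤ (v + v / 8) * (n0 : ℝ) := by positivity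
  have hc := cuts_card x n0 M e _ hD he0 hdiff
  have hvn : 0 < v * n0 := by positivity
  have h3 : (v + v / 8) * n0 * ((M : ℝ) / 2) ≤ (v + v / 8) * n0 * ((cuts x n0 M).card : ℝ) := by
    nlinarith
  exact le_of_mul_le_mul_left h3 (by positivity)

/-- the final arithmetic of step 1 -/
theorem step_one_arith (v τ ε Q K1 K' L N s t X1 X2 X3 Y : ℝ)
    (hA1 : X1 ≤ (v + ε) * s + K1) (hA2 : X3 ≤ (v + ε) * (N - t) + K1)
    (hval : v * N - 1 ≤ X1 + X2 + X3) (hB : X2 + Y ≤ (L + ε) * (t - s) + K')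
    (hc : (L - v) * (t - s) ≤ 2 * Q) (he : ε * N = Q) (hy : 4 * Q - τ ≤ Y)
    (h5 : 1 + 2 * K1 + τ + K' < Q) : False := by
  have h1 : (v + ε) * s + (v + ε) * (N - t) = v * N + ε * N - (v + ε) * (t - s) := by ring
  have h2 : (L + ε) * (t - s) = (L - v) * (t - s) + (v + ε) * (t - s) := by ring
  linarith

/-- the final estimate of step 1 -/
theorem step_one_fin (hP : PathClass A B C r0 P) {v τ K1 K : ℝ} {n0 M : ℕ} (hn0 : 0 < n0)
    (hK : 0 < K) (hτ : 0 < τ) (hK1 : 0 ≤ K1)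
    {a b x y} (hpath : P a b x y (n0 * M))
    (hb1 : ∀ s t, s ≤ t → t ≤ n0 * M → (1 : ℝ) * ((x t : ℝ) - x s) + 0 * ((y t : ℝ) - y s) ≤
        (v + τ / (8 * K * n0)) * ((t : ℝ) - s) + K1)
    (hval : v * ((n0 * M : ℕ) : ℝ) - 1 ≤
      1 * ((x (n0 * M) : ℝ) - x 0) + 0 * ((y (n0 * M) : ℝ) - y 0))
    (s t : ℕ) (β L K' : ℝ) (hst : s ≤ t) (ht : t ≤ n0 * M)
    (hL' : L ≤ v + τ * (1 / (4 * K * n0))) (hK'0 : 0 ≤ K')
    (hB : 1 * ((x t : ℝ) - x s) + β * ((y t : ℝ) - y s) ≤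
      (L + τ / (8 * K * n0)) * ((t : ℝ) - s) + K')
    (hy : τ * ((M : ℝ) / (2 * K) - 1) ≤ β * ((y t : ℝ) - y s))
    (hM : 8 * K * (1 + 2 * K1 + τ + K') < M * τ) : False := by
  have hn0' : (0 : ℝ) < n0 := by exact_mod_cast hn0
  have hN : ((n0 * M : ℕ) : ℝ) = n0 * M := by push_cast; ring
  have hA1 := hb1 0 s (Nat.zero_le _) (hst.trans ht)
  have hA2 := hb1 t (n0 * M) ht le_rfl
  have hdN : (t : ℝ) - s ≤ n0 * M := by
    have : (t : ℝ) ≤ n0 * M := by rw [← hN]; exact_mod_cast ht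
    have : (0 : ℝ) ≤ s := by positivity
    linarith
  have hd0 : (0 : ℝ) ≤ (t : ℝ) - s := by
    have : (s : ℝ) ≤ t := by exact_mod_cast hst
    linarith
  have hc1 : (L - v) * ((t : ℝ) - s) ≤ τ * (1 / (4 * K * n0)) * (n0 * M) := by
    have hcpos : 0 ≤ τ * (1 / (4 * K * n0)) := by positivity
    calc (L - v) * ((t : ℝ) - s) ≤ (τ * (1 / (4 * K * n0))) * ((t : ℝ) - s) :=
          mul_le_mul_of_nonneg_right (by linarith) hd0
      _ ≤ _ := mul_le_mul_of_nonneg_left hdN hcpos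
  have e1 : τ * (1 / (4 * K * n0)) * (n0 * M) = 2 * (τ * M / (8 * K)) := by
    field_simp; ring
  have e2 : τ / (8 * K * n0) * (n0 * M) = τ * M / (8 * K) := by
    field_simp
  have e3 : τ * ((M : ℝ) / (2 * K) - 1) = 4 * (τ * M / (8 * K)) - τ := by
    field_simp; ring
  have e5 : 1 + 2 * K1 + τ + K' < τ * M / (8 * K) := by
    rw [lt_div_iff₀ (by positivity)]
    linarith
  rw [hN] at hA2 hval
  rw [e1] at hc1
  rw [e3] at hy
  refine step_one_arith v τ (τ / (8 * K * n0)) (τ * M / (8 * K)) K1 K' L (n0 * M) s t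
    ((x s : ℝ) - x 0) ((x t : ℝ) - x s) ((x (n0 * M) : ℝ) - x t) (β * ((y t : ℝ) - y s))
    ?_ ?_ ?_ ?_ hc1 e2 hy e5
  · simp only [Nat.cast_zero, sub_zero, zero_mul, add_zero, one_mul] at hA1
    exact hA1
  · simp only [Nat.cast_zero, sub_zero, zero_mul, add_zero, one_mul] at hA2
    exact hA2
  · linarith
  · linarith

/-- (A2) step 1 -/
theorem step_one [Finite A] [Finite B] (hP : PathClass A B C r0 P)
    (v : ℝ) (hv : 0 < v) (h1 : Speed P 1 0 v) :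
    ∃ c : ℝ, 0 < c ∧ ∀ τ : ℝ, 0 < τ → ∀ Lp Lm : ℝ, Speed P 1 τ Lp → Speed P 1 (-τ) Lm →
      v + τ * c ≤ max Lp Lm := by
  classical
  obtain ⟨n0, hn0, hn⟩ := h1.1 (v / 8) (by positivity)
  obtain ⟨r, hr1, hr2⟩ : ∃ r : ℤ, C * n0 ≤ r ∧ r0 ≤ r :=
    ⟨max (C * n0) r0, le_max_left _ _, le_max_right _ _⟩
  set K : ℕ := Nat.card ({t : ℤ // |t| ≤ r} → A) + 1 with hK
  have hK0 : (0 : ℝ) < K := by positivity
  have hn0' : (0 : ℝ) < n0 := by exact_mod_cast hn0
  refine ⟨1 / (4 * K * n0), by positivity, ?_⟩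
  intro τ hτ Lp Lm hLp hLm
  by_contra hcon
  have hcon := not_le.1 hcon
  have hp' : Lp ≤ v + τ * (1 / (4 * K * n0)) := (le_max_left _ _).trans hcon.le
  have hm' : Lm ≤ v + τ * (1 / (4 * K * n0)) := (le_max_right _ _).trans hcon.le
  have hε : 0 < τ / (8 * K * n0) := by positivity
  obtain ⟨K1, hK1, hb1⟩ := speed_aff hP h1 _ hε
  obtain ⟨K2, hK2, hb2⟩ := speed_aff hP hLp _ hε
  obtain ⟨K3, hK3, hb3⟩ := speed_aff hP hLm _ hε
  obtain ⟨M, hM⟩ := exists_nat_gt (8 * K * (1 + 2 * K1 + τ + K2 + K3) / τ + 8 / (v * n0) + 1)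
  have q1 : 0 ≤ 8 / (v * n0) := by positivity
  have q2 : 0 ≤ 8 * K * (1 + 2 * K1 + τ + K2 + K3) / τ := by positivity
  have hMa : 8 * K * (1 + 2 * K1 + τ + K2 + K3) / τ < M := by linarith
  have hMb : 8 / (v * n0) < M := by linarith
  have hMc : (1 : ℝ) < M := by linarith
  rw [div_lt_iff₀ hτ] at hMa
  rw [div_lt_iff₀ (by positivity)] at hMb
  obtain ⟨a, b, x, y, hpath, hval⟩ := h1.2 (n0 * M)
  have hIbig := many_cuts hP hv hn0 (fun a b x y h => hn n0 le_rfl a b x y h) hpath hval hMb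
  have hIne : (cuts x n0 M).Nonempty := by
    rw [← Finset.card_pos]
    have : (0 : ℝ) < (cuts x n0 M).card := by linarith
    exact_mod_cast this
  obtain ⟨i1, i2, hi1M, hi2M, himg⟩ :=
    cuts_spread hP hn0 hpath r hr1 hr2 K (Nat.le_succ _) hIne
  have hydiff : (M : ℝ) / (2 * K) - 1 ≤ (y (n0 * i2) : ℝ) - y (n0 * i1) := by
    have h2 : (M : ℝ) / 2 ≤ K * ((y (n0 * i2) : ℝ) - y (n0 * i1) + 1) := hIbig.trans himg
    have h3 : (M : ℝ) / (2 * K) ≤ (y (n0 * i2) : ℝ) - y (n0 * i1) + 1 := by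
      rw [div_le_iff₀ (by positivity)]
      linarith
    linarith
  have hb1' := hb1 a b x y _ hpath
  rcases le_total i1 i2 with h | h
  · refine step_one_fin hP hn0 hK0 hτ hK1 hpath hb1' hval (n0 * i1) (n0 * i2) τ Lp K2
      (Nat.mul_le_mul_left _ h) (Nat.mul_le_mul_left _ hi2M) hp' hK2
      (hb2 a b x y _ hpath _ _ (Nat.mul_le_mul_left _ h) (Nat.mul_le_mul_left _ hi2M)) ?_ ?_
    · exact mul_le_mul_of_nonneg_left hydiff hτ.le
    · have : 8 * (K : ℝ) * (1 + 2 * K1 + τ + K2) ≤ 8 * K * (1 + 2 * K1 + τ + K2 + K3) :=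
        mul_le_mul_of_nonneg_left (by linarith) (by positivity)
      linarith
  · refine step_one_fin hP hn0 hK0 hτ hK1 hpath hb1' hval (n0 * i2) (n0 * i1) (-τ) Lm K3
      (Nat.mul_le_mul_left _ h) (Nat.mul_le_mul_left _ hi1M) hm' hK3
      (hb3 a b x y _ hpath _ _ (Nat.mul_le_mul_left _ h) (Nat.mul_le_mul_left _ hi1M)) ?_ ?_
    · have := mul_le_mul_of_nonneg_left hydiff hτ.le
      linarith
    · have : 8 * (K : ℝ) * (1 + 2 * K1 + τ + K3) ≤ 8 * K * (1 + 2 * K1 + τ + K2 + K3) :=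
        mul_le_mul_of_nonneg_left (by linarith) (by positivity)
      linarith

end Vale.Agent.P192.R2.H360
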