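import Vale.Agent.P192.R2.H360.Prune

set_option linter.all false

/-! Actions on all subsets of a set. -/

namespace Vale.Agent.P192.R2.H360

open Vale.Agent.P192 Vale.Agent.P192.H437

/-- statement of (P4) -/
def PruneStmt : Prop := ∀ (G : Type) [Group G] [Group.IsFinitelyPresented G], IsMulTorsion G →
  ∀ (S : Set G), Subgroup.closure S = ⊤ → ∀ m : ℕ,
    ∃ N : Subgroup G, N.Normal ∧ N.FiniteIndex ∧
      ∀ (Y A : Type) (Ω Ω₀ : Set (Y → A)) (act : (Y → A) → (G →* Equiv.Perm Y))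
      (Rd : Y → Finset Y), Prune S m Ω Ω₀ act Rd → ∀ ω ∈ Ω, ∀ g ∈ N, act ω g = 1

/-- (P8) families of actions on all subsets of a set, with reading sets of at most `m` points -/
theorem subsets_of (hP : PruneStmt) (G : Type) [Group G] [Group.IsFinitelyPresented G]
    (hG : IsMulTorsion G) (S : Set G) (hS : Subgroup.closure S = ⊤) (m : ℕ) :
    ∃ N : Subgroup G, N.Normal ∧ N.FiniteIndex ∧
      ∀ (V : Type) (Rd : V → Finset V),
        (∀ v, v ∈ Rd v ∧ (Rd v).card ≤ m ∧ {u | v ∈ Rd u}.encard ≤ m) →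
        ∀ act : ∀ K : Set V, G →* Equiv.Perm K,
        (∀ s, (s ∈ S ∨ s⁻¹ ∈ S) → ∀ (K K' : Set V) (v : V) (h : v ∈ K) (h' : v ∈ K'),
          (∀ x ∈ Rd v, x ∈ K ↔ x ∈ K') → (act K s ⟨v, h⟩ : V) ∈ Rd v ∧
            (act K s ⟨v, h⟩ : V) = act K' s ⟨v, h'⟩) →
        ∀ K, ∀ g ∈ N, act K g = 1 := by
  classical
  obtain ⟨N, hN1, hN2, hN3⟩ := hP G hG S hS (m + 1)
  refine ⟨N, hN1, hN2, ?_⟩
  intro V Rd hR act hact K g hg
  let A : (V → Prop) → (G →* Equiv.Perm V) := fun ω =>
    (Equiv.Perm.ofSubtype (p := fun x => x ∈ {v | ω v})).comp (act {v | ω v})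
  have hA1 : ∀ (ω : V → Prop) (g : G) (v : V) (h : v ∈ {v | ω v}),
      A ω g v = (act {v | ω v} g ⟨v, h⟩ : V) := by
    intro ω g v h
    exact Equiv.Perm.ofSubtype_apply_of_mem (act {v | ω v} g) h
  have hA2 : ∀ (ω : V → Prop) (g : G) (v : V), v ∉ {v | ω v} → A ω g v = v := by
    intro ω g v h
    exact Equiv.Perm.ofSubtype_apply_of_not_mem (act {v | ω v} g) h
  have hmem : ∀ s, (s ∈ S ∨ s⁻¹ ∈ S) → ∀ (ω : V → Prop) (v : V), A ω s v ∈ Rd v := by
    intro s hs ω v
    by_cases h : v ∈ {v | ω v}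
    · rw [hA1 ω s v h]
      exact (hact s hs _ _ v h h (fun x _ => Iff.rfl)).1
    · rw [hA2 ω s v h]; exact (hR v).1
  have hprune : Prune S (m + 1) (Set.univ : Set (V → Prop)) {fun _ => False} A Rd := by
    refine ⟨fun v => (hR v).1, fun v => (hR v).2.1.trans (Nat.le_succ m), ?_, ?_, ?_, ?_, ?_⟩
    · intro k
      exact (hR k).2.2.trans (by exact_mod_cast Nat.le_succ m)
    · intro s hs ω ω' _ _ v hv
      by_cases h : v ∈ {v | ω v}
      · have h' : v ∈ {v | ω' v} := by
          have := hv v (hR v).1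
          show ω' v
          rw [← this]; exact h
        rw [hA1 ω s v h, hA1 ω' s v h']
        refine (hact s hs _ _ v h h' ?_).2
        intro x hx
        show ω x ↔ ω' x
        rw [hv x hx]
      · have h' : v ∉ {v | ω' v} := by
          have := hv v (hR v).1
          show ¬ ω' v
          rw [← this]; exact h
        rw [hA2 ω s v h, hA2 ω' s v h']
    · intro o ho y
      obtain rfl : o = fun _ => False := ho
      have : {z | ∃ g, A (fun _ => False) g y = z} ⊆ {y} := by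
        rintro z ⟨g, rfl⟩
        exact hA2 _ g y (fun h => h)
      refine (Set.encard_le_encard this).trans ?_
      rw [Set.encard_singleton]
      exact_mod_cast Nat.succ_le_succ (Nat.zero_le m)
    · intro s hs y
      have : {z | ∃ ω ∈ (Set.univ : Set (V → Prop)), A ω s y = z} ⊆ (Rd y : Set V) := by
        rintro z ⟨ω, -, rfl⟩
        exact hmem s hs ω y
      refine (Set.encard_le_encard this).trans ?_
      rw [Set.encard_coe_eq_coe_finsetCard]
      exact_mod_cast (hR y).2.1.trans (Nat.le_succ m)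
    · intro ω _ K
      refine ⟨fun v => ω v ∧ v ∈ K, Set.mem_univ _, fun _ => False, rfl, K, le_rfl, ?_, ?_, ?_⟩
      · exact Nat.le_mul_of_pos_left _ (Nat.succ_pos m)
      · intro k hk
        simp [hk]
      · intro k hk
        simp [hk]
  have h1 := hN3 V Prop Set.univ _ A Rd hprune (fun v => v ∈ K) (Set.mem_univ _) g hg
  ext ⟨v, hv⟩
  have h2 : A (fun v => v ∈ K) g v = v := by rw [h1]; rfl
  rw [hA1 (fun v => v ∈ K) g v hv] at h2
  exact h2

end Vale.Agent.P192.R2.H360
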