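import Vale.Agent.P192.R2.H360.Line

set_option linter.all false

/-! (T2): orbits of a virtually cyclic group are coarse lines. -/

namespace Vale.Agent.P192.R2.H360

namespace VC642

variable {E : Type} [Group E] (t : E)

abbrev Q : Type := E ⧸ Subgroup.zpowers t

theorem key1 (g : E) : ∃ (r : Q t) (j : ℤ), g = Quotient.out r * t ^ j := by
  obtain ⟨h, hh⟩ := QuotientGroup.mk_out_eq_mul (Subgroup.zpowers t) g
  obtain ⟨j, hj⟩ := Subgroup.mem_zpowers_iff.1 h.2
  refine ⟨(g : E ⧸ Subgroup.zpowers t), -j, ?_⟩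
  rw [hh, ← hj, mul_assoc, ← zpow_add]
  simp

variable {U : Type} [MulAction E U]

/-- base point of the orbit of `u` -/
noncomputable def base (u : U) : U :=
  Quotient.out (Quotient.mk (MulAction.orbitRel E U) u)

theorem base_smul (e : E) (u : U) : base (E := E) (e • u) = base (E := E) u := by
  unfold base
  congr 1
  apply Quotient.sound
  exact MulAction.mem_orbit u e

theorem exists_base (u : U) : ∃ e : E, u = e • base (E := E) u := by
  have h := Quotient.mk_out (s := MulAction.orbitRel E U) u
  have h' : u ∈ MulAction.orbit E (base (E := E) u) := by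
    have := (MulAction.orbitRel E U).symm h
    exact this
  obtain ⟨e, he⟩ := h'
  exact ⟨e, he.symm⟩

/-- the set of absolute values of exponents leading to `u` -/
def D (u : U) : Set ℕ :=
  {n | ∃ (r : Q t) (j : ℤ), j.natAbs = n ∧ u = Quotient.out r • (t ^ j) • base (E := E) u}

theorem D_nonempty (u : U) : (D t u).Nonempty := by
  obtain ⟨e, he⟩ := exists_base (E := E) u
  obtain ⟨r, j, hr⟩ := key1 t e
  refine ⟨j.natAbs, r, j, rfl, ?_⟩
  rw [← mul_smul, ← hr]
  exact he

/-- the coordinate on the orbit -/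
noncomputable def c (u : U) : ℕ := sInf (D t u)

theorem c_spec (u : U) : ∃ (r : Q t) (j : ℤ), j.natAbs = c t u ∧
    u = Quotient.out r • (t ^ j) • base (E := E) u :=
  Nat.sInf_mem (D_nonempty t u)

theorem c_le [Fintype (Q t)] (R : E → Q t → Q t) (J : E → Q t → ℤ)
    (h : ∀ e r, e * Quotient.out r = Quotient.out (R e r) * t ^ (J e r)) (e : E) (u : U) :
    c t (e • u) ≤ c t u + ∑ r, (J e r).natAbs := by
  obtain ⟨r, j, hj, hu⟩ := c_spec t u
  have h1 : (J e r + j).natAbs ∈ D t (e • u) := by
    refine ⟨R e r, J e r + j, rfl, ?_⟩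
    rw [base_smul, zpow_add, mul_smul, ← mul_smul, ← h e r, mul_smul, ← hu]
  have h2 : c t (e • u) ≤ (J e r + j).natAbs := Nat.sInf_le h1
  have h3 := Int.natAbs_add_le (J e r) j
  have h4 : (J e r).natAbs ≤ ∑ r, (J e r).natAbs :=
    Finset.single_le_sum (f := fun r => (J e r).natAbs) (fun _ _ => Nat.zero_le _)
      (Finset.mem_univ r)
  omega

end VC642

open VC642 in
/-- (T2) orbits of a virtually cyclic (or finite) group are coarse lines: `p u` = (orbit,
smallest `|j|` with `u = r t^j u₀`, `r` in a finite transversal of `⟨t⟩`, `u₀` the base point) -/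
theorem vc_coarse (E : Type) [Group E] (t : E) (ht : (Subgroup.zpowers t).FiniteIndex) :
    ∃ k : ℕ, ∀ (U : Type) [MulAction E U], ∃ (I : Type) (p : U → I × ℤ), Coarse k p ∧
      ∀ e : E, ∃ C : ℕ, ∀ u, (p (e • u)).1 = (p u).1 ∧ |(p (e • u)).2 - (p u).2| ≤ C := by
  haveI : Finite (Q t) := Subgroup.finite_quotient_of_finiteIndex
  haveI : Fintype (Q t) := Fintype.ofFinite _
  choose R J h using fun (e : E) (r : Q t) => key1 t (e * Quotient.out r)
  refine ⟨Fintype.card (Q t × Bool), fun U _ => ?_⟩
  refine ⟨Quotient (MulAction.orbitRel E U),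
    fun u => (Quotient.mk (MulAction.orbitRel E U) u, (c t u : ℤ)), ?_, ?_⟩
  · rintro ⟨o, z⟩
    have hsub : {u : U | (Quotient.mk (MulAction.orbitRel E U) u, (c t u : ℤ)) = (o, z)} ⊆
        (fun x : Q t × Bool =>
          Quotient.out x.1 • (t ^ (if x.2 then z else -z)) • (Quotient.out o : U)) ''
            (Set.univ : Set (Q t × Bool)) := by
      intro u hu
      simp only [Set.mem_setOf_eq, Prod.mk.injEq] at hu
      obtain ⟨ho, hz⟩ := hu
      obtain ⟨r, j, hj, hu⟩ := c_spec t u
      have hb : base (E := E) u = Quotient.out o := by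
        unfold base
        rw [ho]
      rw [hb] at hu
      have hjz : j = z ∨ j = -z := by omega
      rcases hjz with hjz | hjz
      · refine ⟨(r, true), Set.mem_univ _, ?_⟩
        simp only [if_true]
        rw [← hjz]
        exact hu.symm
      · refine ⟨(r, false), Set.mem_univ _, ?_⟩
        simp only [Bool.false_eq_true, if_false]
        rw [← hjz]
        exact hu.symm
    refine (Set.encard_le_encard hsub).trans ((Set.encard_image_le _ _).trans ?_)
    rw [Set.encard_univ]
    simp
  · intro e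
    refine ⟨∑ r, (J e r).natAbs + ∑ r, (J e⁻¹ r).natAbs, fun u => ⟨?_, ?_⟩⟩
    · apply Quotient.sound
      exact MulAction.mem_orbit u e
    · have h1 := c_le t R J h e u
      have h2 := c_le t R J h e⁻¹ (e • u)
      rw [inv_smul_smul] at h2
      show |((c t (e • u) : ℕ) : ℤ) - ((c t u : ℕ) : ℤ)| ≤
        ((∑ r, (J e r).natAbs + ∑ r, (J e⁻¹ r).natAbs : ℕ) : ℤ)
      rw [abs_le]
      constructor <;> omega

end Vale.Agent.P192.R2.H360
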